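import Mathlib

namespace Vale.Agent.P121

open scoped RealInnerProductSpace Topology
open Filter

section inv

variable {V : Type*} [NormedAddCommGroup V] [NormedSpace ℝ V] [FiniteDimensional ℝ V]

/-- The inverse function theorem in the form used below. -/
lemma inv_near {f : V → V} {a : V} (hf : ContDiffAt ℝ 1 f a) {f' : V →L[ℝ] V}
    (hf' : HasFDerivAt f f' a) (hinj : ∀ h, f' h = 0 → h = 0) :
    ∃ g : V → V, ContDiffAt ℝ 1 g (f a) ∧ g (f a) = a ∧ (∀ᶠ x in 𝓝 a, g (f x) = x) ∧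
      (∀ᶠ y in 𝓝 (f a), f (g y) = y) := by
  have : CompleteSpace V := FiniteDimensional.complete ℝ V
  have hinj' : Function.Injective (f' : V →ₗ[ℝ] V) := by
    rw [← LinearMap.ker_eq_bot, Submodule.eq_bot_iff]
    intro x hx
    exact hinj x hx
  let e : V ≃L[ℝ] V := (LinearEquiv.ofInjectiveEndo (f' : V →ₗ[ℝ] V) hinj').toContinuousLinearEquiv
  have he : (e : V →L[ℝ] V) = f' := by
    ext x
    rfl
  rw [← he] at hf'
  have hs := hf.hasStrictFDerivAt' hf' one_ne_zero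
  exact ⟨hf.localInverse hf' one_ne_zero, hf.to_localInverse hf' one_ne_zero,
    hf.localInverse_apply_image hf' one_ne_zero, hs.eventually_left_inverse,
    hs.eventually_right_inverse⟩

end inv

variable {V : Type*} [NormedAddCommGroup V] [InnerProductSpace ℝ V]

/-- The Coulomb field. -/
noncomputable def W (w : V) : V := (‖w‖ ^ 2) ^ (-(3 / 2) : ℝ) • w

omit [InnerProductSpace ℝ V] in
lemma norm_rpow (w : V) : (‖w‖ ^ 2) ^ (-(3 / 2) : ℝ) = (‖w‖ ^ 3)⁻¹ := by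
  rw [← Real.rpow_natCast, ← Real.rpow_mul (norm_nonneg w), ← Real.rpow_natCast,
    ← Real.rpow_neg (norm_nonneg w)]
  norm_num

lemma W_eq (w : V) : W w = (‖w‖ ^ 3)⁻¹ • w := by
  unfold W
  rw [norm_rpow]

lemma W_neg (w : V) : W (-w) = -W w := by
  unfold W
  rw [norm_neg, smul_neg]

/-- The derivative of the Coulomb field. -/
noncomputable def dW (w : V) : V →L[ℝ] V :=
  (‖w‖ ^ 2) ^ (-(3 / 2) : ℝ) • ContinuousLinearMap.id ℝ V +
    ((-(3 / 2) * (‖w‖ ^ 2) ^ (-(3 / 2) - 1 : ℝ)) • (2 • innerSL ℝ w)).smulRight w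

lemma hasFDerivAt_W {w : V} (hw : w ≠ 0) : HasFDerivAt W (dW w) w := by
  have h1 : HasFDerivAt (fun w : V => ‖w‖ ^ 2) (2 • innerSL ℝ w) w :=
    (hasStrictFDerivAt_norm_sq w).hasFDerivAt
  have h2 := h1.rpow_const (p := (-(3 / 2) : ℝ)) (Or.inl (by
    have := norm_pos_iff.2 hw
    positivity))
  exact h2.smul (hasFDerivAt_id w)

lemma contDiffAt_W {w : V} (hw : w ≠ 0) : ContDiffAt ℝ 1 W w := by
  have h1 : ContDiffAt ℝ 1 (fun w : V => ‖w‖ ^ 2) w := (contDiff_norm_sq ℝ).contDiffAt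
  have h2 : ContDiffAt ℝ 1 (fun w : V => (‖w‖ ^ 2) ^ (-(3 / 2) : ℝ)) w :=
    h1.rpow_const_of_ne (by
      have := norm_pos_iff.2 hw
      positivity)
  exact h2.smul contDiffAt_id

lemma dW_one {v : V} (hv : ‖v‖ = 1) (h : V) : dW v h = h - (3 * ⟪v, h⟫) • v := by
  unfold dW
  simp only [hv, one_pow, Real.one_rpow, one_smul, add_apply,
    ContinuousLinearMap.id_apply, ContinuousLinearMap.smulRight_apply,
    smul_apply, innerSL_apply_apply, smul_eq_mul, nsmul_eq_mul]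
  rw [sub_eq_add_neg, ← neg_smul]
  congr 2
  push_cast
  ring

lemma dW_neg_one {v : V} (hv : ‖v‖ = 1) (h : V) : dW (-v) h = h - (3 * ⟪v, h⟫) • v := by
  have hv' : ‖-v‖ = 1 := by rw [norm_neg, hv]
  rw [dW_one hv', inner_neg_left, smul_neg]
  rw [mul_neg, neg_smul]
  abel

lemma dW_two {v : V} (hv : ‖v‖ = 1) (h : V) :
    dW ((2 : ℝ) • v) h = (1 / 8 : ℝ) • (h - (3 * ⟪v, h⟫) • v) := by
  have hv' : ‖(2 : ℝ) • v‖ = 2 := by rw [norm_smul, hv]; norm_num
  have e1 : ((2 : ℝ) ^ 2) ^ (-(3 / 2) : ℝ) = 1 / 8 := by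
    rw [← Real.rpow_natCast, ← Real.rpow_mul (by norm_num)]
    have : ((2 : ℕ) : ℝ) * -(3 / 2) = -(3 : ℕ) := by norm_num
    rw [this, Real.rpow_neg (by norm_num), Real.rpow_natCast]
    norm_num
  have e2 : ((2 : ℝ) ^ 2) ^ (-(3 / 2) - 1 : ℝ) = 1 / 32 := by
    rw [← Real.rpow_natCast, ← Real.rpow_mul (by norm_num)]
    have : ((2 : ℕ) : ℝ) * (-(3 / 2) - 1) = -(5 : ℕ) := by norm_num
    rw [this, Real.rpow_neg (by norm_num), Real.rpow_natCast]
    norm_num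
  unfold dW
  simp only [hv', e1, e2, add_apply,
    ContinuousLinearMap.id_apply, ContinuousLinearMap.smulRight_apply,
    smul_apply, innerSL_apply_apply, smul_eq_mul, nsmul_eq_mul,
    inner_smul_left]
  rw [smul_sub, smul_smul, smul_smul, sub_eq_add_neg, ← neg_smul]
  congr 2
  simp
  ring

/-- The tangent inequality for the Coulomb potential. -/
lemma tangent {w w0 : V} (hw : w ≠ 0) (hw0 : w0 ≠ 0) :
    1 / ‖w0‖ - ⟪W w0, w - w0⟫ - ‖w - w0‖ ^ 2 / (2 * ‖w0‖ ^ 3) ≤ 1 / ‖w‖ := by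
  have hs : 0 < ‖w‖ := norm_pos_iff.2 hw
  have hs0 : 0 < ‖w0‖ := norm_pos_iff.2 hw0
  have e1 : ‖w‖ ^ 2 = ‖w0‖ ^ 2 + 2 * ⟪w0, w - w0⟫ + ‖w - w0‖ ^ 2 := by
    have := norm_add_sq_real w0 (w - w0)
    rw [add_sub_cancel] at this
    exact this
  rw [W_eq, inner_smul_left]
  simp only [conj_trivial]
  have e2 : 1 / ‖w0‖ - (‖w0‖ ^ 3)⁻¹ * ⟪w0, w - w0⟫ - ‖w - w0‖ ^ 2 / (2 * ‖w0‖ ^ 3)
      = 1 / ‖w0‖ - (‖w‖ ^ 2 - ‖w0‖ ^ 2) / (2 * ‖w0‖ ^ 3) := by
    rw [e1]
    field_simp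
    ring
  rw [e2]
  have e3 : 1 / ‖w‖ - (1 / ‖w0‖ - (‖w‖ ^ 2 - ‖w0‖ ^ 2) / (2 * ‖w0‖ ^ 3))
      = (‖w‖ - ‖w0‖) ^ 2 * (‖w‖ + 2 * ‖w0‖) / (2 * ‖w0‖ ^ 3 * ‖w‖) := by
    field_simp
    ring
  have e4 : 0 ≤ (‖w‖ - ‖w0‖) ^ 2 * (‖w‖ + 2 * ‖w0‖) / (2 * ‖w0‖ ^ 3 * ‖w‖) := by positivity
  linarith

/-- First optimality equation. -/
noncomputable def G1 (q : V × V × V) : V := W (q.1 - q.2.1) + W (q.1 - q.2.2) - (20 : ℝ) • q.1

/-- Second optimality equation. -/
noncomputable def G2 (v : V) (q : V × V × V) : V :=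
  W (q.2.1 - q.1) + W (q.2.1 - q.2.2) - (5 / 4 : ℝ) • v - (20 : ℝ) • (q.2.1 - v)

/-- The map to be inverted. -/
noncomputable def Th (v : V) (q : V × V × V) : V × V × V := (q.1, G1 q, G2 v q)

/-- first projection -/
noncomputable def pA : V × V × V →L[ℝ] V := ContinuousLinearMap.fst ℝ V (V × V)
/-- second projection -/
noncomputable def pB : V × V × V →L[ℝ] V :=
  (ContinuousLinearMap.fst ℝ V V).comp (ContinuousLinearMap.snd ℝ V (V × V))
/-- third projection -/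
noncomputable def pC : V × V × V →L[ℝ] V :=
  (ContinuousLinearMap.snd ℝ V V).comp (ContinuousLinearMap.snd ℝ V (V × V))

@[simp] lemma pA_apply (q : V × V × V) : pA q = q.1 := rfl
@[simp] lemma pB_apply (q : V × V × V) : pB q = q.2.1 := rfl
@[simp] lemma pC_apply (q : V × V × V) : pC q = q.2.2 := rfl

/-- derivative of `Th` at the base point -/
noncomputable def dTh (v : V) : V × V × V →L[ℝ] V × V × V :=
  pA.prod (((dW (-v)).comp (pA - pB) + (dW v).comp (pA - pC) - (20 : ℝ) • pA).prod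
    ((dW v).comp (pB - pA) + (dW ((2 : ℝ) • v)).comp (pB - pC) - (20 : ℝ) • pB))

lemma hasFDerivAt_Th {v : V} (hv : ‖v‖ = 1) : HasFDerivAt (Th v) (dTh v) (0, v, -v) := by
  have hv0 : v ≠ 0 := by
    rintro rfl
    simp at hv
  have a1 : HasFDerivAt (fun q : V × V × V => W (q.1 - q.2.1)) ((dW (-v)).comp (pA - pB))
      (0, v, -v) := by
    have h1 : HasFDerivAt (fun q : V × V × V => q.1 - q.2.1) (pA - pB) (0, v, -v) :=
      (pA - pB : V × V × V →L[ℝ] V).hasFDerivAt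
    have h2 : HasFDerivAt (W : V → V) (dW (-v)) ((0 : V) - v) := by
      rw [zero_sub]; exact hasFDerivAt_W (neg_ne_zero.2 hv0)
    exact HasFDerivAt.comp (g := W) (f := fun q : V × V × V => q.1 - q.2.1) (0, v, -v) h2 h1
  have a2 : HasFDerivAt (fun q : V × V × V => W (q.1 - q.2.2)) ((dW v).comp (pA - pC))
      (0, v, -v) := by
    have h1 : HasFDerivAt (fun q : V × V × V => q.1 - q.2.2) (pA - pC) (0, v, -v) :=
      (pA - pC : V × V × V →L[ℝ] V).hasFDerivAt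
    have h2 : HasFDerivAt (W : V → V) (dW v) ((0 : V) - -v) := by
      rw [zero_sub, neg_neg]; exact hasFDerivAt_W hv0
    exact HasFDerivAt.comp (g := W) (f := fun q : V × V × V => q.1 - q.2.2) (0, v, -v) h2 h1
  have a3 : HasFDerivAt (fun q : V × V × V => W (q.2.1 - q.1)) ((dW v).comp (pB - pA))
      (0, v, -v) := by
    have h1 : HasFDerivAt (fun q : V × V × V => q.2.1 - q.1) (pB - pA) (0, v, -v) :=
      (pB - pA : V × V × V →L[ℝ] V).hasFDerivAt
    have h2 : HasFDerivAt (W : V → V) (dW v) (v - (0 : V)) := by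
      rw [sub_zero]; exact hasFDerivAt_W hv0
    exact HasFDerivAt.comp (g := W) (f := fun q : V × V × V => q.2.1 - q.1) (0, v, -v) h2 h1
  have a4 : HasFDerivAt (fun q : V × V × V => W (q.2.1 - q.2.2))
      ((dW ((2 : ℝ) • v)).comp (pB - pC)) (0, v, -v) := by
    have h1 : HasFDerivAt (fun q : V × V × V => q.2.1 - q.2.2) (pB - pC) (0, v, -v) :=
      (pB - pC : V × V × V →L[ℝ] V).hasFDerivAt
    have h2 : HasFDerivAt (W : V → V) (dW ((2 : ℝ) • v)) (v - -v) := by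
      have : v - -v = (2 : ℝ) • v := by rw [two_smul]; abel
      rw [this]
      exact hasFDerivAt_W (smul_ne_zero two_ne_zero hv0)
    exact HasFDerivAt.comp (g := W) (f := fun q : V × V × V => q.2.1 - q.2.2) (0, v, -v) h2 h1
  have hA : HasFDerivAt (fun q : V × V × V => q.1) (pA : V × V × V →L[ℝ] V) (0, v, -v) :=
    (pA : V × V × V →L[ℝ] V).hasFDerivAt
  have hB : HasFDerivAt (fun q : V × V × V => q.2.1) (pB : V × V × V →L[ℝ] V) (0, v, -v) :=
    (pB : V × V × V →L[ℝ] V).hasFDerivAt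
  have b1 : HasFDerivAt (G1 : V × V × V → V)
      ((dW (-v)).comp (pA - pB) + (dW v).comp (pA - pC) - (20 : ℝ) • pA) (0, v, -v) :=
    (a1.add a2).sub (hA.const_smul (20 : ℝ))
  have b2 : HasFDerivAt (G2 v : V × V × V → V)
      ((dW v).comp (pB - pA) + (dW ((2 : ℝ) • v)).comp (pB - pC) - (20 : ℝ) • pB)
      (0, v, -v) :=
    ((a3.add a4).sub_const _).sub ((hB.sub_const v).const_smul (20 : ℝ))
  exact hA.prodMk (b1.prodMk b2)

lemma contDiffAt_Th {v : V} (hv : ‖v‖ = 1) : ContDiffAt ℝ 1 (Th v) (0, v, -v) := by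
  have hv0 : v ≠ 0 := by
    rintro rfl
    simp at hv
  have a1 : ContDiffAt ℝ 1 (fun q : V × V × V => W (q.1 - q.2.1)) (0, v, -v) := by
    have h2 : ContDiffAt ℝ 1 (W : V → V) ((0 : V) - v) := by
      rw [zero_sub]; exact contDiffAt_W (neg_ne_zero.2 hv0)
    exact ContDiffAt.comp (g := W) (f := fun q : V × V × V => q.1 - q.2.1) (0, v, -v) h2
      ((pA - pB : V × V × V →L[ℝ] V).contDiff.contDiffAt)
  have a2 : ContDiffAt ℝ 1 (fun q : V × V × V => W (q.1 - q.2.2)) (0, v, -v) := by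
    have h2 : ContDiffAt ℝ 1 (W : V → V) ((0 : V) - -v) := by
      rw [zero_sub, neg_neg]; exact contDiffAt_W hv0
    exact ContDiffAt.comp (g := W) (f := fun q : V × V × V => q.1 - q.2.2) (0, v, -v) h2
      ((pA - pC : V × V × V →L[ℝ] V).contDiff.contDiffAt)
  have a3 : ContDiffAt ℝ 1 (fun q : V × V × V => W (q.2.1 - q.1)) (0, v, -v) := by
    have h2 : ContDiffAt ℝ 1 (W : V → V) (v - (0 : V)) := by
      rw [sub_zero]; exact contDiffAt_W hv0
    exact ContDiffAt.comp (g := W) (f := fun q : V × V × V => q.2.1 - q.1) (0, v, -v) h2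
      ((pB - pA : V × V × V →L[ℝ] V).contDiff.contDiffAt)
  have a4 : ContDiffAt ℝ 1 (fun q : V × V × V => W (q.2.1 - q.2.2)) (0, v, -v) := by
    have h2 : ContDiffAt ℝ 1 (W : V → V) (v - -v) := by
      have : v - -v = (2 : ℝ) • v := by rw [two_smul]; abel
      rw [this]
      exact contDiffAt_W (smul_ne_zero two_ne_zero hv0)
    exact ContDiffAt.comp (g := W) (f := fun q : V × V × V => q.2.1 - q.2.2) (0, v, -v) h2
      ((pB - pC : V × V × V →L[ℝ] V).contDiff.contDiffAt)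
  have hA : ContDiffAt ℝ 1 (fun q : V × V × V => q.1) (0, v, -v) :=
    (pA : V × V × V →L[ℝ] V).contDiff.contDiffAt
  have hB : ContDiffAt ℝ 1 (fun q : V × V × V => q.2.1) (0, v, -v) :=
    (pB : V × V × V →L[ℝ] V).contDiff.contDiffAt
  have b1 : ContDiffAt ℝ 1 (G1 : V × V × V → V) (0, v, -v) :=
    (a1.add a2).sub (contDiffAt_const.smul hA)
  have b2 : ContDiffAt ℝ 1 (G2 v : V × V × V → V) (0, v, -v) :=
    ((a3.add a4).sub contDiffAt_const).sub (contDiffAt_const.smul (hB.sub contDiffAt_const))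
  exact hA.prodMk (b1.prodMk b2)

lemma dTh_apply {v : V} (hv : ‖v‖ = 1) (h k l : V) : dTh v (h, k, l) =
    (h, ((h - k) - (3 * ⟪v, h - k⟫) • v) + ((h - l) - (3 * ⟪v, h - l⟫) • v) - (20 : ℝ) • h,
      ((k - h) - (3 * ⟪v, k - h⟫) • v) +
        (1 / 8 : ℝ) • ((k - l) - (3 * ⟪v, k - l⟫) • v) - (20 : ℝ) • k) := by
  unfold dTh
  simp only [ContinuousLinearMap.prod_apply, sub_apply,
    add_apply, ContinuousLinearMap.comp_apply, pA_apply, pB_apply, pC_apply,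
    dW_one hv, dW_neg_one hv, dW_two hv, smul_apply]

end Vale.Agent.P121
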