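import Mathlib
import Vale.Agent.P121.Local

namespace Vale.Agent.P121

open scoped RealInnerProductSpace Topology
open Filter

variable {V : Type*} [NormedAddCommGroup V] [InnerProductSpace ℝ V]

lemma inner_self_one {v : V} (hv : ‖v‖ = 1) : ⟪v, v⟫ = 1 := by
  rw [real_inner_self_eq_norm_sq, hv]; norm_num

lemma dTh_inj {v : V} (hv : ‖v‖ = 1) (q : V × V × V) (hq : dTh v q = 0) : q = 0 := by
  obtain ⟨h, k, l⟩ := q
  rw [dTh_apply hv] at hq
  simp only [Prod.mk_eq_zero] at hq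
  obtain ⟨h0, e1, e2⟩ := hq
  subst h0
  have hvv := inner_self_one hv
  have f1 := congrArg (fun z => ⟪v, z⟫) e1
  have f2 := congrArg (fun z => ⟪v, z⟫) e2
  simp only [inner_add_right, inner_sub_right, inner_smul_right, hvv, inner_zero_right] at f1 f2
  have t0 : ⟪v, l⟫ = -⟪v, k⟫ := by linarith
  have s0 : ⟪v, k⟫ = 0 := by linarith
  have l0 : ⟪v, l⟫ = 0 := by linarith
  simp only [inner_sub_right, inner_neg_right, s0, l0, sub_zero, mul_zero, zero_smul,
    zero_sub, smul_zero, neg_zero] at e1 e2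
  have g1 : l = -k := by
    rw [← sub_eq_zero]
    have : l - -k = -(-k + -l) := by abel
    rw [this, e1, neg_zero]
  subst g1
  have g2 : (-(75 / 4) : ℝ) • k = 0 := by
    rw [← e2]
    module
  have g3 : k = 0 := by
    rcases smul_eq_zero.1 g2 with h | h
    · norm_num at h
    · exact h
  simp [g3]

lemma T_inj {v : V} (hv : ‖v‖ = 1) {h l : V} (hq : dTh v (h, 0, l) = (h, 0, 0)) : h = 0 := by
  rw [dTh_apply hv] at hq
  simp only [Prod.mk.injEq, true_and] at hq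
  obtain ⟨e1, e2⟩ := hq
  have hvv := inner_self_one hv
  have f1 := congrArg (fun z => ⟪v, z⟫) e1
  have f2 := congrArg (fun z => ⟪v, z⟫) e2
  simp only [inner_add_right, inner_sub_right, inner_smul_right, hvv, inner_zero_right] at f1 f2
  have s0 : ⟪v, h⟫ = 0 := by linarith
  have l0 : ⟪v, l⟫ = 0 := by linarith
  simp only [inner_sub_right, inner_neg_right, s0, l0, sub_zero, mul_zero, zero_smul,
    zero_sub, smul_zero, neg_zero] at e1 e2
  have g1 : l = (-8 : ℝ) • h := by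
    have : l - (-8 : ℝ) • h = (-8 : ℝ) • (-h + (1 / 8 : ℝ) • -l) := by module
    rw [← sub_eq_zero, this, e2, smul_zero]
  subst g1
  have g2 : (-10 : ℝ) • h = 0 := by
    rw [← e1]
    module
  rcases smul_eq_zero.1 g2 with h | h
  · norm_num at h
  · exact h

lemma S_inj {v : V} (hv : ‖v‖ = 1) {h k : V} (hq : dTh v (h, k, 0) = (h, 0, 0)) : h = 0 := by
  rw [dTh_apply hv] at hq
  simp only [Prod.mk.injEq, true_and] at hq
  obtain ⟨e1, e2⟩ := hq
  have hvv := inner_self_one hv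
  have f1 := congrArg (fun z => ⟪v, z⟫) e1
  have f2 := congrArg (fun z => ⟪v, z⟫) e2
  simp only [inner_add_right, inner_sub_right, inner_smul_right, hvv, inner_zero_right] at f1 f2
  have s0 : ⟪v, h⟫ = 0 := by linarith
  have l0 : ⟪v, k⟫ = 0 := by linarith
  simp only [inner_sub_right, s0, l0, sub_zero, mul_zero, zero_smul] at e1 e2
  have g1 : k = (-18 : ℝ) • h := by
    have : k - (-18 : ℝ) • h = -(h - k + h - (20 : ℝ) • h) := by module
    rw [← sub_eq_zero, this, e1, neg_zero]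
  subst g1
  have g2 : (1355 / 4 : ℝ) • h = 0 := by
    rw [← e2]
    module
  rcases smul_eq_zero.1 g2 with h | h
  · norm_num at h
  · exact h

lemma Th_base {v : V} (hv : ‖v‖ = 1) : Th v (0, v, -v) = (0, 0, 0) := by
  have e1 : W v = v := by rw [W_eq, hv]; simp
  have e2 : W ((2 : ℝ) • v) = (1 / 4 : ℝ) • v := by
    rw [W_eq, norm_smul, hv, smul_smul]; norm_num
  unfold Th
  refine Prod.ext rfl (Prod.ext ?_ ?_)
  · show W ((0 : V) - v) + W ((0 : V) - -v) - (20 : ℝ) • (0 : V) = 0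
    rw [zero_sub, zero_sub, neg_neg, W_neg, e1]
    simp
  · show W (v - (0 : V)) + W (v - -v) - (5 / 4 : ℝ) • v - (20 : ℝ) • (v - v) = 0
    have : v - -v = (2 : ℝ) • v := by rw [two_smul]; abel
    rw [this, sub_zero, e1, e2]
    module

lemma local_maps [FiniteDimensional ℝ V] {v : V} (hv : ‖v‖ = 1) :
    ∃ T S gT gS : V → V, T 0 = v ∧ S 0 = -v ∧ ContDiffAt ℝ 1 T 0 ∧ ContDiffAt ℝ 1 S 0 ∧
      ContDiffAt ℝ 1 gT v ∧ ContDiffAt ℝ 1 gS (-v) ∧ (∀ᶠ x in 𝓝 (0 : V), gT (T x) = x) ∧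
      (∀ᶠ x in 𝓝 (0 : V), gS (S x) = x) ∧
      (∀ᶠ x in 𝓝 (0 : V), G1 (x, T x, S x) = 0 ∧ G2 v (x, T x, S x) = 0) := by
  obtain ⟨φ, hφ, hφ0, _, hr⟩ := inv_near (contDiffAt_Th hv) (hasFDerivAt_Th hv) (dTh_inj hv)
  rw [Th_base hv] at hφ hφ0 hr
  -- the section
  set ι : V →L[ℝ] V × V × V := ContinuousLinearMap.inl ℝ V (V × V) with hι
  have hι0 : ∀ x, ι x = (x, 0, 0) := fun x => rfl
  set ψ : V → V × V × V := fun x => φ (ι x) with hψ
  have hι00 : ι 0 = (0, 0, 0) := rfl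
  have hψC : ContDiffAt ℝ 1 ψ 0 := by
    have : ContDiffAt ℝ 1 φ (ι 0) := hφ
    exact ContDiffAt.comp (g := φ) (f := ι) 0 this ι.contDiff.contDiffAt
  have hψ0 : ψ 0 = (0, v, -v) := hφ0
  have hev : ∀ᶠ x in 𝓝 (0 : V), Th v (ψ x) = ι x := by
    have hten : Tendsto ι (𝓝 0) (𝓝 (0, 0, 0)) := by
      have := ι.continuous.tendsto 0
      rwa [hι00] at this
    exact hten.eventually hr
  have hψd : HasFDerivAt ψ (fderiv ℝ ψ 0) 0 := (hψC.differentiableAt (by norm_num)).hasFDerivAt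
  set ψ' := fderiv ℝ ψ 0 with hψ'
  have hchain : ∀ h, dTh v (ψ' h) = (h, 0, 0) := by
    have h1 : HasFDerivAt (fun x => Th v (ψ x)) ((dTh v).comp ψ') 0 := by
      have h2 : HasFDerivAt (Th v) (dTh v) (ψ 0) := by rw [hψ0]; exact hasFDerivAt_Th hv
      exact HasFDerivAt.comp (g := Th v) (f := ψ) 0 h2 hψd
    have h3 : HasFDerivAt (fun x => Th v (ψ x)) ι 0 :=
      ι.hasFDerivAt.congr_of_eventuallyEq hev
    have h4 := h1.unique h3
    intro h
    have := congrArg (fun L => L h) h4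
    exact this
  have hfst : ∀ h, (ψ' h).1 = h := by
    intro h
    have := congrArg Prod.fst (hchain h)
    exact this
  set T : V → V := fun x => (ψ x).2.1 with hT
  set S : V → V := fun x => (ψ x).2.2 with hS
  have hTC : ContDiffAt ℝ 1 T 0 := hψC.snd.fst
  have hSC : ContDiffAt ℝ 1 S 0 := hψC.snd.snd
  have hT0 : T 0 = v := by rw [hT]; simp only [hψ0]
  have hS0 : S 0 = -v := by rw [hS]; simp only [hψ0]
  have hTd : HasFDerivAt T (pB.comp ψ') 0 := by
    have : HasFDerivAt (fun q : V × V × V => q.2.1) (pB : V × V × V →L[ℝ] V) (ψ 0) :=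
      (pB : V × V × V →L[ℝ] V).hasFDerivAt
    exact HasFDerivAt.comp (g := fun q : V × V × V => q.2.1) (f := ψ) 0 this hψd
  have hSd : HasFDerivAt S (pC.comp ψ') 0 := by
    have : HasFDerivAt (fun q : V × V × V => q.2.2) (pC : V × V × V →L[ℝ] V) (ψ 0) :=
      (pC : V × V × V →L[ℝ] V).hasFDerivAt
    exact HasFDerivAt.comp (g := fun q : V × V × V => q.2.2) (f := ψ) 0 this hψd
  have hTi : ∀ h, (pB.comp ψ') h = 0 → h = 0 := by
    intro h hh
    have h1 : (ψ' h).2.1 = 0 := hh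
    have h2 : ψ' h = (h, 0, (ψ' h).2.2) := by
      refine Prod.ext (hfst h) (Prod.ext h1 rfl)
    have h3 := hchain h
    rw [h2] at h3
    exact T_inj hv h3
  have hSi : ∀ h, (pC.comp ψ') h = 0 → h = 0 := by
    intro h hh
    have h1 : (ψ' h).2.2 = 0 := hh
    have h2 : ψ' h = (h, (ψ' h).2.1, 0) := by
      refine Prod.ext (hfst h) (Prod.ext rfl h1)
    have h3 := hchain h
    rw [h2] at h3
    exact S_inj hv h3
  obtain ⟨gT, hgT, _, hgTl, _⟩ := inv_near hTC hTd hTi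
  obtain ⟨gS, hgS, _, hgSl, _⟩ := inv_near hSC hSd hSi
  rw [hT0] at hgT
  rw [hS0] at hgS
  refine ⟨T, S, gT, gS, hT0, hS0, hTC, hSC, hgT, hgS, hgTl, hgSl, ?_⟩
  filter_upwards [hev] with x hx
  have h1 : (ψ x).1 = x := congrArg Prod.fst hx
  have h2 : ψ x = (x, T x, S x) := Prod.ext h1 rfl
  rw [h2] at hx
  exact ⟨congrArg (fun q => q.2.1) hx, congrArg (fun q => q.2.2) hx⟩

/-- The packaged local data: maps on a small ball. -/
lemma local_ball [FiniteDimensional ℝ V] {v : V} (hv : ‖v‖ = 1) {ε : ℝ} (hε : 0 < ε) :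
    ∃ T S gT gS : V → V, ∃ r > 0, ∀ x, ‖x‖ < r →
      ‖T x - v‖ < ε ∧ ‖S x + v‖ < ε ∧ ContinuousAt T x ∧ ContinuousAt S x ∧
      DifferentiableAt ℝ gT (T x) ∧ DifferentiableAt ℝ gS (S x) ∧ gT (T x) = x ∧ gS (S x) = x ∧
      G1 (x, T x, S x) = 0 ∧ G2 v (x, T x, S x) = 0 := by
  obtain ⟨T, S, gT, gS, hT0, hS0, hTC, hSC, hgT, hgS, hgTl, hgSl, hG⟩ := local_maps hv
  refine ⟨T, S, gT, gS, ?_⟩
  have c1 : ∀ᶠ x in 𝓝 (0 : V), ContinuousAt T x :=
    (hTC.eventually (by simp)).mono fun x hx => hx.continuousAt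
  have c2 : ∀ᶠ x in 𝓝 (0 : V), ContinuousAt S x :=
    (hSC.eventually (by simp)).mono fun x hx => hx.continuousAt
  have tT : Tendsto T (𝓝 0) (𝓝 v) := by
    have := hTC.continuousAt.tendsto
    rwa [hT0] at this
  have tS : Tendsto S (𝓝 0) (𝓝 (-v)) := by
    have := hSC.continuousAt.tendsto
    rwa [hS0] at this
  have d1 : ∀ᶠ x in 𝓝 (0 : V), DifferentiableAt ℝ gT (T x) :=
    tT.eventually ((hgT.eventually (by simp)).mono fun x hx => hx.differentiableAt (by norm_num))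
  have d2 : ∀ᶠ x in 𝓝 (0 : V), DifferentiableAt ℝ gS (S x) :=
    tS.eventually ((hgS.eventually (by simp)).mono fun x hx => hx.differentiableAt (by norm_num))
  have n1 : ∀ᶠ x in 𝓝 (0 : V), ‖T x - v‖ < ε := by
    have := tT.eventually (Metric.ball_mem_nhds v hε)
    filter_upwards [this] with x hx
    rwa [← dist_eq_norm]
  have n2 : ∀ᶠ x in 𝓝 (0 : V), ‖S x + v‖ < ε := by
    have := tS.eventually (Metric.ball_mem_nhds (-v) hε)
    filter_upwards [this] with x hx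
    have h2 : dist (S x) (-v) < ε := hx
    rwa [dist_eq_norm, sub_neg_eq_add] at h2
  have hall := n1.and (n2.and (c1.and (c2.and (d1.and (d2.and (hgTl.and (hgSl.and hG)))))))
  obtain ⟨r, hr, hball⟩ := Metric.eventually_nhds_iff.1 hall
  refine ⟨r, hr, fun x hx => ?_⟩
  have := hball (y := x) (by rwa [dist_zero_right])
  obtain ⟨a1, a2, a3, a4, a5, a6, a7, a8, a9, a10⟩ := this
  exact ⟨a1, a2, a3, a4, a5, a6, a7, a8, a9, a10⟩

end Vale.Agent.P121
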