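import Mathlib
import Vale.Agent.P121.Local2

namespace Vale.Agent.P121

open scoped RealInnerProductSpace Topology
open Filter MeasureTheory

/-- three-dimensional Euclidean space -/
abbrev E := EuclideanSpace ℝ (Fin 3)

/-- The maps attached to the pair of antipodal points `v`, `-v`. -/
structure Cls (v : E) (r : ℝ) where
  /-- partner near `v` -/
  T : E → E
  /-- partner near `-v` -/
  S : E → E
  /-- inverse of `T` -/
  gT : E → E
  /-- inverse of `S` -/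
  gS : E → E
  mT : Measurable T
  mS : Measurable S
  mgT : Measurable gT
  mgS : Measurable gS
  nT : ∀ x, ‖x‖ < r → ‖T x - v‖ < 1 / 1000
  nS : ∀ x, ‖x‖ < r → ‖S x + v‖ < 1 / 1000
  iT : ∀ x, ‖x‖ < r → gT (T x) = x
  iS : ∀ x, ‖x‖ < r → gS (S x) = x
  e1 : ∀ x, ‖x‖ < r → G1 (x, T x, S x) = 0
  e2 : ∀ x, ‖x‖ < r → G2 v (x, T x, S x) = 0
  acT : ∀ N : Set E, volume N = 0 → volume (T ⁻¹' N ∩ Metric.ball 0 r) = 0
  acS : ∀ N : Set E, volume N = 0 → volume (S ⁻¹' N ∩ Metric.ball 0 r) = 0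

open Classical in
/-- Measurable modification of a local diffeomorphism. -/
lemma modify {T g : E → E} {r : ℝ} (hc : ∀ x, ‖x‖ < r → ContinuousAt T x)
    (hd : ∀ x, ‖x‖ < r → DifferentiableAt ℝ g (T x)) (hi : ∀ x, ‖x‖ < r → g (T x) = x) :
    ∃ T' g' : E → E, Measurable T' ∧ Measurable g' ∧ (∀ x, ‖x‖ < r → T' x = T x) ∧
      (∀ x, ‖x‖ < r → g' (T x) = x) ∧
      (∀ N : Set E, volume N = 0 → volume (T' ⁻¹' N ∩ Metric.ball 0 r) = 0) := by
  set A : Set E := Metric.ball 0 r with hA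
  have hmem : ∀ x, x ∈ A ↔ ‖x‖ < r := fun x => by rw [hA, mem_ball_zero_iff]
  have hcA : ContinuousOn T A := fun x hx => (hc x ((hmem x).1 hx)).continuousWithinAt
  have hmA : MeasurableSet A := Metric.isOpen_ball.measurableSet
  set T' : E → E := A.piecewise T (fun _ => 0) with hT'
  have hT'm : Measurable T' := hcA.measurable_piecewise continuousOn_const hmA
  have hT'e : ∀ x, ‖x‖ < r → T' x = T x := fun x hx => by
    rw [hT', Set.piecewise_eq_of_mem _ _ _ ((hmem x).2 hx)]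
  have hinj : Set.InjOn T A := by
    intro x hx y hy hxy
    rw [← hi x ((hmem x).1 hx), ← hi y ((hmem y).1 hy), hxy]
  have hR : MeasurableSet (T '' A) := hmA.image_of_continuousOn_injOn hcA hinj
  have hgc : ContinuousOn g (T '' A) := by
    rintro _ ⟨x, hx, rfl⟩
    exact (hd x ((hmem x).1 hx)).continuousAt.continuousWithinAt
  refine ⟨T', (T '' A).piecewise g (fun _ => 0), hT'm,
    hgc.measurable_piecewise continuousOn_const hR, hT'e, ?_, ?_⟩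
  · intro x hx
    have hx' : T x ∈ T '' A := ⟨x, (hmem x).2 hx, rfl⟩
    rw [Set.piecewise_eq_of_mem _ _ _ hx']
    exact hi x hx
  · intro N hN
    have hsub : T' ⁻¹' N ∩ A ⊆ g '' (N ∩ T '' A) := by
      rintro x ⟨hx1, hx2⟩
      have hx3 := (hmem x).1 hx2
      have hx4 : T' x ∈ N := hx1
      rw [hT'e x hx3] at hx4
      exact ⟨T x, ⟨hx4, x, hx2, rfl⟩, hi x hx3⟩
    refine measure_mono_null hsub ?_
    refine addHaar_image_eq_zero_of_differentiableOn_of_addHaar_eq_zero volume ?_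
      (measure_mono_null Set.inter_subset_left hN)
    rintro _ ⟨_, x, hx, rfl⟩
    exact (hd x ((hmem x).1 hx)).differentiableWithinAt

lemma exists_cls {v : E} (hv : ‖v‖ = 1) : ∃ r0 > 0, ∀ r, r ≤ r0 → Nonempty (Cls v r) := by
  obtain ⟨T, S, gT, gS, r0, hr0, h⟩ := local_ball hv (ε := 1 / 1000) (by norm_num)
  refine ⟨r0, hr0, fun r hr => ?_⟩
  have h' : ∀ x, ‖x‖ < r → _ := fun x hx => h x (hx.trans_le hr)
  obtain ⟨T', gT', a1, a2, a3, a4, a5⟩ := modify (T := T) (g := gT) (r := r)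
    (fun x hx => (h' x hx).2.2.1) (fun x hx => (h' x hx).2.2.2.2.1)
    (fun x hx => (h' x hx).2.2.2.2.2.2.1)
  obtain ⟨S', gS', b1, b2, b3, b4, b5⟩ := modify (T := S) (g := gS) (r := r)
    (fun x hx => (h' x hx).2.2.2.1) (fun x hx => (h' x hx).2.2.2.2.2.1)
    (fun x hx => (h' x hx).2.2.2.2.2.2.2.1)
  exact ⟨{
    T := T', S := S', gT := gT', gS := gS', mT := a1, mS := b1, mgT := a2, mgS := b2
    nT := fun x hx => by rw [a3 x hx]; exact (h' x hx).1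
    nS := fun x hx => by rw [b3 x hx]; exact (h' x hx).2.1
    iT := fun x hx => by rw [a3 x hx]; exact a4 x hx
    iS := fun x hx => by rw [b3 x hx]; exact b4 x hx
    e1 := fun x hx => by rw [a3 x hx, b3 x hx]; exact (h' x hx).2.2.2.2.2.2.2.2.1
    e2 := fun x hx => by rw [a3 x hx, b3 x hx]; exact (h' x hx).2.2.2.2.2.2.2.2.2
    acT := a5, acS := b5 }⟩

/-- The real cost. -/
noncomputable def cr (x y z : E) : ℝ := 1 / ‖x - y‖ + 1 / ‖x - z‖ + 1 / ‖y - z‖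

/-- potential on the central ball -/
noncomputable def UA (x : E) : ℝ := 21 / 2 - 10 * ‖x‖ ^ 2

/-- potential near `v` -/
noncomputable def UB (v y : E) : ℝ := 1 - 5 / 4 * ⟪v, y - v⟫ - 10 * ‖y - v‖ ^ 2

/-- The key inequality with its quadratic margin. -/
lemma key {v x0 y0 z x y : E} (h1 : G1 (x0, y0, z) = 0) (h2 : G2 v (x0, y0, z) = 0)
    (d1 : 9 / 10 ≤ ‖x0 - y0‖) (d2 : 9 / 10 ≤ ‖x0 - z‖) (d3 : 9 / 10 ≤ ‖y0 - z‖)
    (n1 : x ≠ y) (n2 : x ≠ z) (n3 : y ≠ z) :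
    UA x + UB v y + (cr x0 y0 z + 10 - UA x0 - UB v y0) + (‖x - x0‖ ^ 2 + ‖y - y0‖ ^ 2)
      ≤ cr x y z + 10 := by
  have p1 : x0 - y0 ≠ 0 := by
    intro h; rw [h] at d1; norm_num at d1
  have p2 : x0 - z ≠ 0 := by
    intro h; rw [h] at d2; norm_num at d2
  have p3 : y0 - z ≠ 0 := by
    intro h; rw [h] at d3; norm_num at d3
  have t1 := tangent (sub_ne_zero.2 n1) p1
  have t2 := tangent (sub_ne_zero.2 n2) p2
  have t3 := tangent (sub_ne_zero.2 n3) p3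
  set a := x - x0 with ha
  set b := y - y0 with hb
  have q1 : x - y - (x0 - y0) = a - b := by rw [ha, hb]; abel
  have q2 : x - z - (x0 - z) = a := by rw [ha]; abel
  have q3 : y - z - (y0 - z) = b := by rw [hb]; abel
  rw [q1] at t1
  rw [q2] at t2
  rw [q3] at t3
  have g1 : W (x0 - z) = (20 : ℝ) • x0 - W (x0 - y0) := by
    have : W (x0 - y0) + W (x0 - z) - (20 : ℝ) • x0 = 0 := h1
    rw [← sub_eq_zero, ← this]; abel
  have g2 : W (y0 - z) = W (x0 - y0) + (5 / 4 : ℝ) • v + (20 : ℝ) • (y0 - v) := by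
    have h3 : W (y0 - x0) + W (y0 - z) - (5 / 4 : ℝ) • v - (20 : ℝ) • (y0 - v) = 0 := h2
    have h4 : W (y0 - x0) = - W (x0 - y0) := by rw [← W_neg, neg_sub]
    rw [h4] at h3
    rw [← sub_eq_zero, ← h3]; abel
  rw [g1] at t2
  rw [g2] at t3
  simp only [inner_sub_left, inner_add_left, inner_smul_left, inner_sub_right,
    conj_trivial] at t1 t2 t3
  have u1 : ‖x‖ ^ 2 = ‖x0‖ ^ 2 + 2 * ⟪x0, a⟫ + ‖a‖ ^ 2 := by
    have := norm_add_sq_real x0 a
    rwa [ha, add_sub_cancel] at this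
  have u2 : ‖y - v‖ ^ 2 = ‖y0 - v‖ ^ 2 + 2 * (⟪y0, b⟫ - ⟪v, b⟫) + ‖b‖ ^ 2 := by
    have h5 := norm_add_sq_real (y0 - v) b
    rw [inner_sub_left] at h5
    have h6 : y0 - v + b = y - v := by rw [hb]; abel
    rwa [h6] at h5
  have u3 : ⟪v, y - v⟫ = ⟪v, y0 - v⟫ + ⟪v, b⟫ := by
    rw [← inner_add_right]
    congr 1
    rw [hb]; abel
  have r1 : ‖a - b‖ ^ 2 / (2 * ‖x0 - y0‖ ^ 3) ≤ 2 * (‖a‖ ^ 2 + ‖b‖ ^ 2) := by
    have k1 : (729 / 1000 : ℝ) ≤ ‖x0 - y0‖ ^ 3 := by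
      have := pow_le_pow_left₀ (by norm_num : (0 : ℝ) ≤ 9 / 10) d1 3
      norm_num at this
      exact this
    have k2 : ‖a - b‖ ^ 2 ≤ 2 * (‖a‖ ^ 2 + ‖b‖ ^ 2) := by
      have := norm_sub_le a b
      nlinarith [norm_nonneg (a - b), norm_nonneg a, norm_nonneg b, sq_nonneg (‖a‖ - ‖b‖)]
    rw [div_le_iff₀ (by positivity)]
    nlinarith [sq_nonneg ‖a‖, sq_nonneg ‖b‖, mul_nonneg (sq_nonneg ‖a‖) (by linarith : 0 ≤ ‖x0 - y0‖ ^ 3 - 729 / 1000), mul_nonneg (sq_nonneg ‖b‖) (by linarith : 0 ≤ ‖x0 - y0‖ ^ 3 - 729 / 1000)]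
  have r2 : ‖a‖ ^ 2 / (2 * ‖x0 - z‖ ^ 3) ≤ ‖a‖ ^ 2 := by
    have k1 : (729 / 1000 : ℝ) ≤ ‖x0 - z‖ ^ 3 := by
      have := pow_le_pow_left₀ (by norm_num : (0 : ℝ) ≤ 9 / 10) d2 3
      norm_num at this
      exact this
    rw [div_le_iff₀ (by positivity)]
    nlinarith [sq_nonneg ‖a‖]
  have r3 : ‖b‖ ^ 2 / (2 * ‖y0 - z‖ ^ 3) ≤ ‖b‖ ^ 2 := by
    have k1 : (729 / 1000 : ℝ) ≤ ‖y0 - z‖ ^ 3 := by
      have := pow_le_pow_left₀ (by norm_num : (0 : ℝ) ≤ 9 / 10) d3 3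
      norm_num at this
      exact this
    rw [div_le_iff₀ (by positivity)]
    nlinarith [sq_nonneg ‖b‖]
  unfold cr UA UB
  rw [u1, u2, u3]
  have s1 := sq_nonneg ‖a‖
  have s2 := sq_nonneg ‖b‖
  linarith

end Vale.Agent.P121
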