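import Mathlib
import Vale.Agent.P121.Cls

namespace Vale.Agent.P121

open scoped RealInnerProductSpace Topology ENNReal
open Filter MeasureTheory

/-- The two directions. -/
noncomputable def vv (i : Bool) : E :=
  if i then EuclideanSpace.single 0 1 else EuclideanSpace.single 1 1

lemma vv_norm (i : Bool) : ‖vv i‖ = 1 := by
  unfold vv
  cases i <;> simp

lemma vv_inner {i j : Bool} (h : i ≠ j) : ⟪vv i, vv j⟫ = 0 := by
  unfold vv
  cases i <;> cases j <;> simp_all [EuclideanSpace.inner_single_left]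

variable {r : ℝ} (C : ∀ i : Bool, Cls (vv i) r)

/-- The outer maps. -/
noncomputable def ph (k : Bool × Bool) : E → E := if k.2 then (C k.1).T else (C k.1).S

/-- Their inverses. -/
noncomputable def gg (k : Bool × Bool) : E → E := if k.2 then (C k.1).gT else (C k.1).gS

/-- The centres. -/
noncomputable def ctr (k : Bool × Bool) : E := if k.2 then vv k.1 else -vv k.1

/-- The outer potentials in terms of the labels. -/
noncomputable def uu (k : Bool × Bool) (x : E) : ℝ :=
  if k.2 then UB (vv k.1) ((C k.1).T x)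
  else cr x ((C k.1).T x) ((C k.1).S x) + 10 - UA x - UB (vv k.1) ((C k.1).T x)

lemma ph_meas (k : Bool × Bool) : Measurable (ph C k) := by
  obtain ⟨i, b⟩ := k
  cases b
  · exact (C i).mS
  · exact (C i).mT

lemma gg_meas (k : Bool × Bool) : Measurable (gg C k) := by
  obtain ⟨i, b⟩ := k
  cases b
  · exact (C i).mgS
  · exact (C i).mgT

lemma ph_near (k : Bool × Bool) {x : E} (hx : ‖x‖ < r) : ‖ph C k x - ctr k‖ < 1 / 1000 := by
  obtain ⟨i, b⟩ := k
  cases b
  · have := (C i).nS x hx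
    simpa [ph, ctr] using this
  · have := (C i).nT x hx
    simpa [ph, ctr] using this

lemma gg_ph (k : Bool × Bool) {x : E} (hx : ‖x‖ < r) : gg C k (ph C k x) = x := by
  obtain ⟨i, b⟩ := k
  cases b
  · exact (C i).iS x hx
  · exact (C i).iT x hx

lemma ctr_norm (k : Bool × Bool) : ‖ctr k‖ = 1 := by
  obtain ⟨i, b⟩ := k
  cases b <;> simp [ctr, vv_norm]

lemma ph_ac (k : Bool × Bool) (N : Set E) (hN : volume N = 0) :
    volume (ph C k ⁻¹' N ∩ Metric.ball 0 r) = 0 := by
  obtain ⟨i, b⟩ := k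
  cases b
  · exact (C i).acS N hN
  · exact (C i).acT N hN

lemma cr_meas : Measurable (fun q : E × E × E => cr q.1 q.2.1 q.2.2) := by
  unfold cr
  fun_prop

lemma cr_meas' {T S : E → E} (hT : Measurable T) (hS : Measurable S) :
    Measurable (fun x => cr x (T x) (S x)) := by
  unfold cr
  fun_prop

lemma UA_meas : Measurable UA := by
  unfold UA
  fun_prop

lemma UB_meas (v : E) : Measurable (UB v) := by
  unfold UB
  fun_prop

lemma uu_meas (k : Bool × Bool) : Measurable (uu C k) := by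
  obtain ⟨i, b⟩ := k
  cases b
  · have h1 : Measurable (fun x => cr x ((C i).T x) ((C i).S x)) :=
      cr_meas' (C i).mT (C i).mS
    have h2 : Measurable (fun x => UB (vv i) ((C i).T x)) := (UB_meas _).comp (C i).mT
    have e : uu C (i, false) = fun x => cr x ((C i).T x) ((C i).S x) + 10 - UA x -
        UB (vv i) ((C i).T x) := by
      funext x
      simp [uu]
    rw [e]
    have h3 : Measurable (fun x => cr x ((C i).T x) ((C i).S x) + 10) := h1.add_const 10
    have h4 : Measurable (fun x => cr x ((C i).T x) ((C i).S x) + 10 - UA x) := h3.sub UA_meas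
    exact h4.sub h2
  · have e : uu C (i, true) = fun x => UB (vv i) ((C i).T x) := by
      funext x
      simp [uu]
    rw [e]
    exact (UB_meas _).comp (C i).mT

lemma orth_dist {a b : E} (ha : ‖a‖ = 1) (hb : ‖b‖ = 1) (h : ⟪a, b⟫ = 0) : ‖a - b‖ ≤ 3 / 2 := by
  have := norm_sub_sq_real a b
  rw [ha, hb, h] at this
  nlinarith [norm_nonneg (a - b)]

lemma ctr_dist {k k' : Bool × Bool} (h : ¬ (k.1 = k'.1 ∧ k.2 ≠ k'.2)) :
    ‖ctr k - ctr k'‖ ≤ 3 / 2 := by
  by_cases h1 : k.1 = k'.1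
  · have h2 : k.2 = k'.2 := by
      by_contra hne
      exact h ⟨h1, hne⟩
    have : k = k' := Prod.ext h1 h2
    rw [this]; norm_num
  · refine orth_dist (ctr_norm k) (ctr_norm k') ?_
    have h3 := vv_inner h1
    obtain ⟨i, b⟩ := k
    obtain ⟨j, b'⟩ := k'
    cases b <;> cases b' <;> simp_all [ctr]

/-- different centres are at distance at least one -/
lemma ctr_ne {k k' : Bool × Bool} (h : k ≠ k') : 1 ≤ ‖ctr k - ctr k'‖ := by
  have hs := norm_sub_sq_real (ctr k) (ctr k')
  rw [ctr_norm, ctr_norm] at hs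
  have hi : ⟪ctr k, ctr k'⟫ ≤ 0 := by
    by_cases h1 : k.1 = k'.1
    · obtain ⟨i, b⟩ := k
      obtain ⟨j, b'⟩ := k'
      simp only at h1
      subst h1
      have hb : b ≠ b' := by
        rintro rfl
        exact h rfl
      cases b <;> cases b' <;> simp_all [ctr, vv_norm]
    · have h3 := vv_inner h1
      obtain ⟨i, b⟩ := k
      obtain ⟨j, b'⟩ := k'
      cases b <;> cases b' <;> simp_all [ctr]
  nlinarith [norm_nonneg (ctr k - ctr k')]

section bounds

variable (hr : r ≤ 1 / 1000)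

/-- upper bound for the distance of points near centres -/
lemma dist_le {p q a b : E} {s t : ℝ} (hp : ‖p - a‖ < s) (hq : ‖q - b‖ < t) :
    ‖p - q‖ < ‖a - b‖ + s + t := by
  have : p - q = (a - b) + (p - a) - (q - b) := by abel
  rw [this]
  have h1 := norm_sub_le ((a - b) + (p - a)) (q - b)
  have h2 := norm_add_le (a - b) (p - a)
  linarith

lemma le_dist {p q a b : E} {s t : ℝ} (hp : ‖p - a‖ < s) (hq : ‖q - b‖ < t) :
    ‖a - b‖ - s - t < ‖p - q‖ := by
  have : a - b = (p - q) - (p - a) + (q - b) := by abel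
  have h1 := norm_add_le ((p - q) - (p - a)) (q - b)
  have h2 := norm_sub_le (p - q) (p - a)
  rw [← this] at h1
  linarith

lemma inv_ge {t s : ℝ} (ht : 0 < t) (h : t ≤ s) : 1 / s ≤ 1 / t :=
  one_div_le_one_div_of_le ht h

include hr in
lemma A_near {x : E} (hx : ‖x‖ < r) : ‖x - 0‖ < 1 / 1000 := by
  rw [sub_zero]; linarith

include hr in
lemma UA_bd {x : E} (hx : ‖x‖ < r) : 104 / 10 ≤ UA x ∧ UA x ≤ 21 / 2 := by
  unfold UA
  have h0 := norm_nonneg x
  constructor
  · nlinarith
  · nlinarith [sq_nonneg ‖x‖]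

lemma UB_bd {v y : E} (hv : ‖v‖ = 1) (hy : ‖y - v‖ < 1 / 1000) :
    998 / 1000 ≤ UB v y ∧ UB v y ≤ 1002 / 1000 := by
  unfold UB
  have h0 := norm_nonneg (y - v)
  have h1 : |⟪v, y - v⟫| ≤ ‖v‖ * ‖y - v‖ := abs_real_inner_le_norm v (y - v)
  rw [hv, one_mul] at h1
  have h2 := abs_le.1 h1
  constructor
  · nlinarith
  · nlinarith [sq_nonneg ‖y - v‖]

include hr in
lemma uu_bd (k : Bool × Bool) {x : E} (hx : ‖x‖ < r) : 9 / 10 ≤ uu C k x ∧ uu C k x ≤ 21 / 20 := by
  obtain ⟨i, b⟩ := k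
  have hT := (C i).nT x hx
  have hUB := UB_bd (vv_norm i) hT
  cases b
  · have hS : ‖(C i).S x - -vv i‖ < 1 / 1000 := by
      rw [sub_neg_eq_add]; exact (C i).nS x hx
    have hA := A_near hr hx
    have hUA := UA_bd hr hx
    have hv := vv_norm i
    have n1 : ‖(0 : E) - vv i‖ = 1 := by rw [zero_sub, norm_neg, hv]
    have n2 : ‖(0 : E) - -vv i‖ = 1 := by rw [zero_sub, neg_neg, hv]
    have n3 : ‖vv i - -vv i‖ = 2 := by
      rw [sub_neg_eq_add, ← two_smul ℝ, norm_smul, hv]; norm_num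
    have a1 := dist_le hA hT
    have a2 := dist_le hA hS
    have a3 := dist_le hT hS
    have b1 := le_dist hA hT
    have b2 := le_dist hA hS
    have b3 := le_dist hT hS
    rw [n1] at a1 b1
    rw [n2] at a2 b2
    rw [n3] at a3 b3
    have c1 : 1 / ‖x - (C i).T x‖ ≤ 1 / (998 / 1000) := inv_ge (by norm_num) (by linarith)
    have c2 : 1 / ‖x - (C i).S x‖ ≤ 1 / (998 / 1000) := inv_ge (by norm_num) (by linarith)
    have c3 : 1 / ‖(C i).T x - (C i).S x‖ ≤ 1 / (1998 / 1000) := inv_ge (by norm_num) (by linarith)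
    have d1 : 1 / (1002 / 1000) ≤ 1 / ‖x - (C i).T x‖ := inv_ge (by linarith) (by linarith)
    have d2 : 1 / (1002 / 1000) ≤ 1 / ‖x - (C i).S x‖ := inv_ge (by linarith) (by linarith)
    have d3 : 1 / (2002 / 1000) ≤ 1 / ‖(C i).T x - (C i).S x‖ :=
      inv_ge (by linarith) (by linarith)
    norm_num at c1 c2 c3 d1 d2 d3
    show 9 / 10 ≤ cr x ((C i).T x) ((C i).S x) + 10 - UA x - UB (vv i) ((C i).T x) ∧
      cr x ((C i).T x) ((C i).S x) + 10 - UA x - UB (vv i) ((C i).T x) ≤ 21 / 20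
    have hUA' : UA x ≥ 21 / 2 - 10 * (1 / 1000) ^ 2 := by
      unfold UA
      have h0 := norm_nonneg x
      nlinarith
    unfold cr
    constructor
    · simp only [one_div]
      linarith [hUB.1, hUB.2, hUA.2]
    · simp only [one_div]
      linarith [hUB.1, hUB.2, hUA.2]
  · show 9 / 10 ≤ UB (vv i) ((C i).T x) ∧ UB (vv i) ((C i).T x) ≤ 21 / 20
    constructor <;> linarith [hUB.1, hUB.2]

end bounds

end Vale.Agent.P121
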