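import Mathlib
import Vale.Agent.P121.Pot

namespace Vale.Agent.P121

open scoped RealInnerProductSpace Topology ENNReal
open Filter MeasureTheory

lemma cr_swap12 (x y z : E) : cr x y z = cr y x z := by
  unfold cr
  rw [norm_sub_rev x y]; ring

lemma cr_swap23 (x y z : E) : cr x y z = cr x z y := by
  unfold cr
  rw [norm_sub_rev y z]; ring

lemma cr_nonneg (x y z : E) : 0 ≤ cr x y z := by
  unfold cr
  positivity

variable {r : ℝ} (C : ∀ i : Bool, Cls (vv i) r) (hr : r ≤ 1 / 1000)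

include hr

/-- antipodal pair -/
lemma RA1 {i : Bool} {x y z : E} (hx : ‖x‖ < r) (hy : ‖y‖ < r) (hz : ‖z‖ < r) :
    UA x + uu C (i, true) y + uu C (i, false) z ≤ cr x ((C i).T y) ((C i).S z) + 10 ∧
    (UA x + uu C (i, true) y + uu C (i, false) z = cr x ((C i).T y) ((C i).S z) + 10 →
      x = z ∧ (C i).T y = (C i).T z) := by
  have hv := vv_norm i
  have hT := (C i).nT y hy
  have hTz := (C i).nT z hz
  have hS : ‖(C i).S z - -vv i‖ < 1 / 1000 := by
    rw [sub_neg_eq_add]; exact (C i).nS z hz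
  have hA := A_near hr hx
  have hAz := A_near hr hz
  have n1 : ‖(0 : E) - vv i‖ = 1 := by rw [zero_sub, norm_neg, hv]
  have n2 : ‖(0 : E) - -vv i‖ = 1 := by rw [zero_sub, neg_neg, hv]
  have n3 : ‖vv i - -vv i‖ = 2 := by
    rw [sub_neg_eq_add, ← two_smul ℝ, norm_smul, hv]; norm_num
  have b1 := le_dist hA hT
  have b2 := le_dist hA hS
  have b3 := le_dist hT hS
  have b4 := le_dist hAz hTz
  have b5 := le_dist hAz hS
  have b6 := le_dist hTz hS
  rw [n1] at b1 b4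
  rw [n2] at b2 b5
  rw [n3] at b3 b6
  have k := key (v := vv i) (x0 := z) (y0 := (C i).T z) (z := (C i).S z) (x := x)
    (y := (C i).T y) ((C i).e1 z hz) ((C i).e2 z hz) (by linarith) (by linarith) (by linarith)
    (by rintro rfl; rw [sub_self, norm_zero] at b1; linarith)
    (by rintro rfl; rw [sub_self, norm_zero] at b2; linarith)
    (by intro h; rw [h, sub_self, norm_zero] at b3; linarith)
  have e1 : uu C (i, true) y = UB (vv i) ((C i).T y) := by simp [uu]
  have e2 : uu C (i, false) z = cr z ((C i).T z) ((C i).S z) + 10 - UA z -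
      UB (vv i) ((C i).T z) := by simp [uu]
  rw [e1, e2]
  have s1 := sq_nonneg ‖x - z‖
  have s2 := sq_nonneg ‖(C i).T y - (C i).T z‖
  refine ⟨by linarith, fun heq => ?_⟩
  have h1 : ‖x - z‖ ^ 2 = 0 := by linarith
  have h2 : ‖(C i).T y - (C i).T z‖ ^ 2 = 0 := by linarith
  exact ⟨sub_eq_zero.1 (norm_eq_zero.1 (pow_eq_zero_iff two_ne_zero |>.1 h1)),
    sub_eq_zero.1 (norm_eq_zero.1 (pow_eq_zero_iff two_ne_zero |>.1 h2))⟩

/-- non-antipodal pair -/
lemma RA2 {k k' : Bool × Bool} (hk : ¬ (k.1 = k'.1 ∧ k.2 ≠ k'.2)) {x y z : E} (hx : ‖x‖ < r)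
    (hy : ‖y‖ < r) (hz : ‖z‖ < r) (hne : ph C k y ≠ ph C k' z) :
    UA x + uu C k y + uu C k' z < cr x (ph C k y) (ph C k' z) + 10 := by
  have hA := A_near hr hx
  have h1 := ph_near C k hy
  have h2 := ph_near C k' hz
  have n1 : ‖(0 : E) - ctr k‖ = 1 := by rw [zero_sub, norm_neg, ctr_norm]
  have n2 : ‖(0 : E) - ctr k'‖ = 1 := by rw [zero_sub, norm_neg, ctr_norm]
  have n3 := ctr_dist hk
  have a1 := dist_le hA h1
  have a2 := dist_le hA h2
  have a3 := dist_le h1 h2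
  have b1 := le_dist hA h1
  have b2 := le_dist hA h2
  rw [n1] at a1 b1
  rw [n2] at a2 b2
  have p3 : 0 < ‖ph C k y - ph C k' z‖ := norm_pos_iff.2 (sub_ne_zero.2 hne)
  have d1 : 1 / (1002 / 1000) ≤ 1 / ‖x - ph C k y‖ := inv_ge (by linarith) (by linarith)
  have d2 : 1 / (1002 / 1000) ≤ 1 / ‖x - ph C k' z‖ := inv_ge (by linarith) (by linarith)
  have d3 : 1 / (1502 / 1000) ≤ 1 / ‖ph C k y - ph C k' z‖ := inv_ge p3 (by linarith)
  have u1 := UA_bd hr hx
  have u2 := uu_bd C hr k hy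
  have u3 := uu_bd C hr k' hz
  norm_num at d1 d2 d3
  unfold cr
  simp only [one_div]
  linarith [u1.2, u2.2, u3.2]

/-- one point in the central ball -/
lemma RA {k k' : Bool × Bool} {x y z : E} (hx : ‖x‖ < r)
    (hy : ‖y‖ < r) (hz : ‖z‖ < r) (hne : ph C k y ≠ ph C k' z) :
    UA x + uu C k y + uu C k' z ≤ cr x (ph C k y) (ph C k' z) + 10 ∧
    (UA x + uu C k y + uu C k' z = cr x (ph C k y) (ph C k' z) + 10 →
      ph C k y = ph C k x) := by
  by_cases hk : k.1 = k'.1 ∧ k.2 ≠ k'.2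
  · obtain ⟨i, b⟩ := k
    obtain ⟨j, b'⟩ := k'
    simp only at hk
    obtain ⟨rfl, hb⟩ := hk
    cases b
    · have hb' : b' = true := by
        cases b'
        · exact absurd rfl hb
        · rfl
      subst hb'
      obtain ⟨h1, h2⟩ := RA1 C hr (i := i) hx hz hy
      have e1 : ph C (i, false) y = (C i).S y := by simp [ph]
      have e2 : ph C (i, true) z = (C i).T z := by simp [ph]
      rw [e1, e2, cr_swap23]
      refine ⟨by linarith, fun heq => ?_⟩
      obtain ⟨h3, _⟩ := h2 (by linarith)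
      subst h3
      simp [ph]
    · have hb' : b' = false := by
        cases b'
        · rfl
        · exact absurd rfl hb
      subst hb'
      obtain ⟨h1, h2⟩ := RA1 C hr (i := i) hx hy hz
      have e1 : ph C (i, true) y = (C i).T y := by simp [ph]
      have e2 : ph C (i, false) z = (C i).S z := by simp [ph]
      rw [e1, e2]
      refine ⟨by linarith, fun heq => ?_⟩
      obtain ⟨h3, h4⟩ := h2 (by linarith)
      subst h3
      rw [h4]
      simp [ph]
  · have := RA2 C hr hk hx hy hz hne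
    exact ⟨this.le, fun h => absurd h this.ne⟩

omit C in
/-- two points in the central ball -/
lemma RAA {x x' s : E} (hx : ‖x‖ < r) (hx' : ‖x'‖ < r) (hne : x ≠ x') {w : ℝ} (hw : w ≤ 21 / 2) :
    UA x + UA x' + w < cr x x' s + 10 := by
  have h1 := (UA_bd hr hx).2
  have h2 := (UA_bd hr hx').2
  have p : 0 < ‖x - x'‖ := norm_pos_iff.2 (sub_ne_zero.2 hne)
  have a := norm_sub_le x x'
  have d : 1 / (2 / 1000) ≤ 1 / ‖x - x'‖ := inv_ge p (by linarith)
  have e1 : 0 ≤ ‖x - s‖⁻¹ := by positivity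
  have e2 : 0 ≤ ‖x' - s‖⁻¹ := by positivity
  norm_num at d
  unfold cr
  simp only [one_div]
  linarith

/-- outer points are not in the central ball -/
lemma out_not (k : Bool × Bool) {x : E} (hx : ‖x‖ < r) : ¬ ‖ph C k x‖ < r := by
  intro h
  have h1 := ph_near C k hx
  have h2 := ctr_norm k
  have h3 : ctr k = ph C k x - (ph C k x - ctr k) := by abel
  have h4 := norm_sub_le (ph C k x) (ph C k x - ctr k)
  rw [← h3, h2] at h4
  linarith

/-- the outer regions are disjoint -/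
lemma out_disj {k k' : Bool × Bool} (hk : k ≠ k') {x y : E} (hx : ‖x‖ < r) (hy : ‖y‖ < r) :
    ph C k x ≠ ph C k' y := by
  intro h
  have h1 := ph_near C k hx
  have h2 := ph_near C k' hy
  rw [← h] at h2
  have h3 := ctr_ne hk
  have h4 : ctr k - ctr k' = (ph C k x - ctr k') - (ph C k x - ctr k) := by abel
  have h5 := norm_sub_le (ph C k x - ctr k') (ph C k x - ctr k)
  rw [← h4] at h5
  linarith

omit hr

open Classical in
/-- The real potential. -/
noncomputable def Ur (p : E) : ℝ :=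
  (Metric.ball (0 : E) r).indicator UA p +
    ∑ k, (ph C k '' Metric.ball (0 : E) r).indicator (fun p => uu C k (gg C k p)) p

include hr

lemma Ur_A {x : E} (hx : ‖x‖ < r) : Ur C x = UA x := by
  classical
  unfold Ur
  rw [Set.indicator_of_mem (mem_ball_zero_iff.2 hx), Finset.sum_eq_zero, add_zero]
  intro k _
  rw [Set.indicator_of_notMem]
  rintro ⟨y, hy, hyx⟩
  rw [mem_ball_zero_iff] at hy
  exact out_not C hr k hy (by rw [hyx]; exact hx)

lemma Ur_O (k : Bool × Bool) {x : E} (hx : ‖x‖ < r) : Ur C (ph C k x) = uu C k x := by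
  classical
  unfold Ur
  rw [Set.indicator_of_notMem (fun h => out_not C hr k hx (mem_ball_zero_iff.1 h)), zero_add,
    Finset.sum_eq_single k]
  · have hmem : ph C k x ∈ ph C k '' Metric.ball (0 : E) r := ⟨x, mem_ball_zero_iff.2 hx, rfl⟩
    rw [Set.indicator_of_mem hmem, gg_ph C k hx]
  · intro k' _ hk'
    rw [Set.indicator_of_notMem]
    rintro ⟨y, hy, hyx⟩
    rw [mem_ball_zero_iff] at hy
    exact out_disj C hr hk' hy hx hyx
  · intro h
    exact absurd (Finset.mem_univ _) h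

omit hr

/-- outer points -/
def IsO (p : E) : Prop := ∃ k x, ‖x‖ < r ∧ p = ph C k x

include hr

lemma Ur_le_of_O {p : E} (hp : IsO C p) : 9 / 10 ≤ Ur C p ∧ Ur C p ≤ 21 / 20 := by
  obtain ⟨k, x, hx, rfl⟩ := hp
  rw [Ur_O C hr k hx]
  exact uu_bd C hr k hx

lemma Ur_bd {p : E} (hp : ‖p‖ < r ∨ IsO C p) : 0 ≤ Ur C p ∧ Ur C p ≤ 21 / 2 := by
  rcases hp with hp | hp
  · rw [Ur_A C hr hp]
    have := UA_bd hr hp
    constructor <;> linarith [this.1, this.2]
  · have := Ur_le_of_O C hr hp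
    constructor <;> linarith [this.1, this.2]

lemma real_A {p q s : E} (hp : ‖p‖ < r) (hq : ‖q‖ < r ∨ IsO C q) (hs : ‖s‖ < r ∨ IsO C s)
    (n1 : p ≠ q) (n2 : p ≠ s) (n3 : q ≠ s) :
    Ur C p + Ur C q + Ur C s ≤ cr p q s + 10 ∧
      (Ur C p + Ur C q + Ur C s = cr p q s + 10 → ∃ k, q = ph C k p) := by
  have bs := Ur_bd C hr hs
  have bq := Ur_bd C hr hq
  rcases hq with hq | hq
  · have := RAA hr (s := s) hp hq n1 bs.2
    rw [← Ur_A C hr hp, ← Ur_A C hr hq] at this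
    exact ⟨this.le, fun h => absurd h this.ne⟩
  · rcases hs with hs | hs
    · have := RAA hr (s := q) hp hs n2 bq.2
      rw [← Ur_A C hr hp, ← Ur_A C hr hs, cr_swap23] at this
      exact ⟨by linarith, fun h => absurd h (by linarith)⟩
    · obtain ⟨k, y, hy, rfl⟩ := hq
      obtain ⟨k', z, hz, rfl⟩ := hs
      obtain ⟨h1, h2⟩ := RA C hr hp hy hz n3
      rw [Ur_A C hr hp, Ur_O C hr k hy, Ur_O C hr k' hz]
      exact ⟨h1, fun h => ⟨k, h2 h⟩⟩

lemma real_le {p q s : E} (hp : ‖p‖ < r ∨ IsO C p) (hq : ‖q‖ < r ∨ IsO C q)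
    (hs : ‖s‖ < r ∨ IsO C s) (n1 : p ≠ q) (n2 : p ≠ s) (n3 : q ≠ s) :
    Ur C p + Ur C q + Ur C s ≤ cr p q s + 10 := by
  by_cases hpA : ‖p‖ < r
  · exact (real_A C hr hpA hq hs n1 n2 n3).1
  by_cases hqA : ‖q‖ < r
  · have := (real_A C hr hqA hp hs n1.symm n3 n2).1
    rw [cr_swap12] at this
    linarith
  by_cases hsA : ‖s‖ < r
  · have := (real_A C hr hsA hp hq n2.symm n3.symm n1).1
    rw [cr_swap12, cr_swap23] at this
    linarith
  · have b1 := Ur_le_of_O C hr (hp.resolve_left hpA)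
    have b2 := Ur_le_of_O C hr (hq.resolve_left hqA)
    have b3 := Ur_le_of_O C hr (hs.resolve_left hsA)
    have := cr_nonneg p q s
    linarith [b1.2, b2.2, b3.2]

omit hr

/-- The extended cost. -/
noncomputable def cE (x y z : E) : ℝ≥0∞ :=
  (ENNReal.ofReal ‖x - y‖)⁻¹ + (ENNReal.ofReal ‖x - z‖)⁻¹ + (ENNReal.ofReal ‖y - z‖)⁻¹

omit C in
lemma cE_of_ne {x y z : E} (n1 : x ≠ y) (n2 : x ≠ z) (n3 : y ≠ z) :
    cE x y z = ENNReal.ofReal (cr x y z) := by
  unfold cE cr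
  have p1 : 0 < ‖x - y‖ := norm_pos_iff.2 (sub_ne_zero.2 n1)
  have p2 : 0 < ‖x - z‖ := norm_pos_iff.2 (sub_ne_zero.2 n2)
  have p3 : 0 < ‖y - z‖ := norm_pos_iff.2 (sub_ne_zero.2 n3)
  rw [ENNReal.ofReal_add (by positivity) (by positivity),
    ENNReal.ofReal_add (by positivity) (by positivity), one_div, one_div, one_div,
    ENNReal.ofReal_inv_of_pos p1, ENNReal.ofReal_inv_of_pos p2, ENNReal.ofReal_inv_of_pos p3]

omit C in
lemma cE_of_eq {x y z : E} (h : ¬ (x ≠ y ∧ x ≠ z ∧ y ≠ z)) : cE x y z = ⊤ := by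
  unfold cE
  by_cases h1 : x = y
  · subst h1; simp
  by_cases h2 : x = z
  · subst h2; simp
  by_cases h3 : y = z
  · subst h3; simp
  exact absurd ⟨h1, h2, h3⟩ h

/-- The potential. -/
noncomputable def UE (p : E) : ℝ≥0∞ := ENNReal.ofReal (Ur C p)

include hr

lemma ennreal_le {p q s : E} (hp : ‖p‖ < r ∨ IsO C p) (hq : ‖q‖ < r ∨ IsO C q)
    (hs : ‖s‖ < r ∨ IsO C s) : UE C p + UE C q + UE C s ≤ cE p q s + 10 := by
  by_cases h : p ≠ q ∧ p ≠ s ∧ q ≠ s
  · obtain ⟨n1, n2, n3⟩ := h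
    rw [cE_of_ne n1 n2 n3]
    unfold UE
    have b1 := (Ur_bd C hr hp).1
    have b2 := (Ur_bd C hr hq).1
    have b3 := (Ur_bd C hr hs).1
    have h10 : (10 : ℝ≥0∞) = ENNReal.ofReal 10 := by simp
    rw [h10, ← ENNReal.ofReal_add b1 b2, ← ENNReal.ofReal_add (by linarith) b3,
      ← ENNReal.ofReal_add (cr_nonneg _ _ _) (by norm_num)]
    exact ENNReal.ofReal_le_ofReal (real_le C hr hp hq hs n1 n2 n3)
  · rw [cE_of_eq h]
    simp

lemma ennreal_eq {p q s : E} (hp : ‖p‖ < r) (hq : ‖q‖ < r ∨ IsO C q)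
    (hs : ‖s‖ < r ∨ IsO C s) (heq : UE C p + UE C q + UE C s = cE p q s + 10) :
    ∃ k, q = ph C k p := by
  by_cases h : p ≠ q ∧ p ≠ s ∧ q ≠ s
  · obtain ⟨n1, n2, n3⟩ := h
    rw [cE_of_ne n1 n2 n3] at heq
    unfold UE at heq
    have b1 := (Ur_bd C hr (Or.inl hp)).1
    have b2 := (Ur_bd C hr hq).1
    have b3 := (Ur_bd C hr hs).1
    have h10 : (10 : ℝ≥0∞) = ENNReal.ofReal 10 := by simp
    rw [h10, ← ENNReal.ofReal_add b1 b2, ← ENNReal.ofReal_add (by linarith) b3,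
      ← ENNReal.ofReal_add (cr_nonneg _ _ _) (by norm_num)] at heq
    have := (ENNReal.ofReal_eq_ofReal_iff (by linarith)
      (by linarith [cr_nonneg p q s])).1 heq
    exact (real_A C hr hp hq hs n1 n2 n3).2 this
  · rw [cE_of_eq h] at heq
    have : UE C p + UE C q + UE C s < ⊤ := by
      unfold UE
      simp [ENNReal.add_lt_top]
    rw [heq] at this
    simp at this

end Vale.Agent.P121
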