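import Mathlib
import Vale.Agent.P121.Ineq

namespace Vale.Agent.P121

open scoped RealInnerProductSpace Topology ENNReal
open Filter MeasureTheory

variable {r : ℝ}

/-- the central ball -/
def BA (r : ℝ) : Set E := Metric.ball (0 : E) r

/-- the central measure, of mass `1/3` -/
noncomputable def al (r : ℝ) : Measure E := (3 * volume (BA r))⁻¹ • volume.restrict (BA r)

lemma mem_BA {x : E} : x ∈ BA r ↔ ‖x‖ < r := mem_ball_zero_iff

lemma BA_meas : MeasurableSet (BA r) := Metric.isOpen_ball.measurableSet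

lemma BA_pos (h0 : 0 < r) : volume (BA r) ≠ 0 := (Metric.measure_ball_pos volume (0 : E) h0).ne'

lemma BA_fin : volume (BA r) ≠ ⊤ := Metric.isBounded_ball.measure_lt_top.ne

lemma al_apply (X : Set E) : al r X = (3 * volume (BA r))⁻¹ * volume (X ∩ BA r) := by
  unfold al
  rw [Measure.smul_apply, Measure.restrict_apply' BA_meas, smul_eq_mul]

lemma al_univ (h0 : 0 < r) : al r Set.univ = 3⁻¹ := by
  rw [al_apply, Set.univ_inter, ENNReal.mul_inv (Or.inl (by norm_num)) (Or.inl (by norm_num)),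
    mul_assoc, ENNReal.inv_mul_cancel (BA_pos h0) BA_fin, mul_one]

lemma al_null {X : Set E} (h : volume (X ∩ BA r) = 0) : al r X = 0 := by
  rw [al_apply, h, mul_zero]

lemma al_ae : ∀ᵐ x ∂(al r), ‖x‖ < r := by
  have : al r {x | ¬ ‖x‖ < r} = 0 := by
    apply al_null
    have : {x : E | ¬ ‖x‖ < r} ∩ BA r = ∅ := by
      ext x
      simp only [Set.mem_inter_iff, Set.mem_empty_iff_false, iff_false]
      rintro ⟨h1, h2⟩
      exact h1 (mem_BA.1 h2)
    rw [this]; simp
  exact this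

variable (C : ∀ i : Bool, Cls (vv i) r) (hr : r ≤ 1 / 1000) (h0 : 0 < r)

/-- the marginal measure -/
noncomputable def mu : Measure E := al r + (2 : ℝ≥0∞)⁻¹ • ∑ k, (al r).map (ph C k)

lemma ph_inj (k : Bool × Bool) : Set.InjOn (ph C k) (BA r) := by
  intro x hx y hy hxy
  rw [← gg_ph C k (mem_BA.1 hx), ← gg_ph C k (mem_BA.1 hy), hxy]

lemma img_meas (k : Bool × Bool) {D : Set E} (hD : MeasurableSet D) (hDA : D ⊆ BA r) :
    MeasurableSet (ph C k '' D) :=
  hD.image_of_measurable_injOn (ph_meas C k) ((ph_inj C k).mono hDA)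

lemma Ur_meas : Measurable (Ur C) := by
  classical
  unfold Ur
  refine (UA_meas.indicator Metric.isOpen_ball.measurableSet).add ?_
  refine Finset.measurable_sum _ fun k _ => ?_
  exact ((uu_meas C k).comp (gg_meas C k)).indicator (img_meas C k BA_meas subset_rfl)

lemma UE_meas : Measurable (UE C) := (Ur_meas C).ennreal_ofReal

lemma mu_apply {X : Set E} (hX : MeasurableSet X) :
    mu C X = al r X + 2⁻¹ * ∑ k, al r (ph C k ⁻¹' X) := by
  unfold mu
  rw [Measure.add_apply, Measure.smul_apply, smul_eq_mul, Measure.finsetSum_apply]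
  congr 2
  refine Finset.sum_congr rfl fun k _ => ?_
  rw [Measure.map_apply (ph_meas C k) hX]

include h0 in
lemma mu_univ : mu C Set.univ = 1 := by
  rw [mu_apply C MeasurableSet.univ]
  simp only [Set.preimage_univ, al_univ h0, Finset.sum_const, Finset.card_univ,
    Fintype.card_prod, Fintype.card_bool]
  rw [nsmul_eq_mul]
  push_cast
  have h4 : (2 : ℝ≥0∞)⁻¹ * (4 * 3⁻¹) = 2 * 3⁻¹ := by
    rw [show (4 : ℝ≥0∞) = 2 * 2 by norm_num, mul_assoc, ← mul_assoc,
      ENNReal.inv_mul_cancel (by norm_num) (by norm_num), one_mul]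
  rw [h4]
  have h3 : (3 : ℝ≥0∞)⁻¹ + 2 * 3⁻¹ = 3 * 3⁻¹ := by
    rw [show (3 : ℝ≥0∞) = 1 + 2 by norm_num, add_mul, one_mul]
  rw [h3, ENNReal.mul_inv_cancel (by norm_num) (by norm_num)]

lemma mu_ac : mu C ≪ volume := by
  refine Measure.AbsolutelyContinuous.mk fun N hN hN0 => ?_
  rw [mu_apply C hN, al_null (measure_mono_null Set.inter_subset_left hN0), zero_add,
    Finset.sum_eq_zero, mul_zero]
  intro k _
  exact al_null (ph_ac C k N hN0)

lemma mu_lint {f : E → ℝ≥0∞} (hf : Measurable f) :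
    ∫⁻ x, f x ∂(mu C) = ∫⁻ x, f x ∂(al r) + 2⁻¹ * ∑ k, ∫⁻ x, f (ph C k x) ∂(al r) := by
  unfold mu
  rw [lintegral_add_measure, lintegral_smul_measure, smul_eq_mul, lintegral_finsetSum_measure]
  congr 2
  refine Finset.sum_congr rfl fun k _ => ?_
  rw [lintegral_map hf (ph_meas C k)]

/-- the support set -/
def KK : Set E := BA r ∪ ⋃ k, ph C k '' BA r

lemma KK_meas : MeasurableSet (KK C) :=
  BA_meas.union (MeasurableSet.iUnion fun k => img_meas C k BA_meas subset_rfl)

lemma mem_KK {p : E} (hp : p ∈ KK C) : ‖p‖ < r ∨ IsO C p := by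
  rcases hp with hp | hp
  · exact Or.inl (mem_BA.1 hp)
  · obtain ⟨k, x, hx, rfl⟩ := Set.mem_iUnion.1 hp
    exact Or.inr ⟨k, x, mem_BA.1 hx, rfl⟩

lemma mu_ae : ∀ᵐ p ∂(mu C), p ∈ KK C := by
  have : mu C (KK C)ᶜ = 0 := by
    rw [mu_apply C (KK_meas C).compl]
    have h1 : al r (KK C)ᶜ = 0 := by
      apply al_null
      have : (KK C)ᶜ ∩ BA r = ∅ := by
        ext x
        simp only [Set.mem_inter_iff, Set.mem_empty_iff_false, iff_false]
        rintro ⟨h1, h2⟩
        exact h1 (Or.inl h2)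
      rw [this]; simp
    rw [h1, zero_add, Finset.sum_eq_zero, mul_zero]
    intro k _
    apply al_null
    have : ph C k ⁻¹' (KK C)ᶜ ∩ BA r = ∅ := by
      ext x
      simp only [Set.mem_inter_iff, Set.mem_empty_iff_false, iff_false]
      rintro ⟨h1, h2⟩
      exact h1 (Or.inr (Set.mem_iUnion.2 ⟨k, x, h2, rfl⟩))
    rw [this]; simp
  exact this

include hr in
/-- equality on the contact set -/
lemma contact (i : Bool) {x : E} (hx : ‖x‖ < r) :
    UE C x + UE C (ph C (i, true) x) + UE C (ph C (i, false) x) =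
      cE x (ph C (i, true) x) (ph C (i, false) x) + 10 := by
  have n1 : x ≠ ph C (i, true) x := by
    intro h
    have := out_not C hr (i, true) hx
    rw [← h] at this
    exact this hx
  have n2 : x ≠ ph C (i, false) x := by
    intro h
    have := out_not C hr (i, false) hx
    rw [← h] at this
    exact this hx
  have n3 : ph C (i, true) x ≠ ph C (i, false) x :=
    out_disj C hr (by simp) hx hx
  rw [cE_of_ne n1 n2 n3]
  unfold UE
  have b1 := (Ur_bd C hr (Or.inl hx)).1
  have b2 := (Ur_bd C hr (Or.inr ⟨(i, true), x, hx, rfl⟩)).1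
  have b3 := (Ur_bd C hr (Or.inr ⟨(i, false), x, hx, rfl⟩)).1
  have h10 : (10 : ℝ≥0∞) = ENNReal.ofReal 10 := by simp
  rw [h10, ← ENNReal.ofReal_add b1 b2, ← ENNReal.ofReal_add (by linarith) b3,
    ← ENNReal.ofReal_add (cr_nonneg _ _ _) (by norm_num)]
  congr 1
  rw [Ur_A C hr hx, Ur_O C hr _ hx, Ur_O C hr _ hx]
  simp only [uu, ph, if_true, Bool.false_eq_true, if_false]
  ring

/-- the optimal coupling -/
noncomputable def PP : Measure (E × E × E) :=
  (2 : ℝ≥0∞)⁻¹ • ∑ i : Bool,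
    ((al r).map (fun x => (x, ph C (i, true) x, ph C (i, false) x)) +
      (al r).map (fun x => (ph C (i, true) x, ph C (i, false) x, x)) +
      (al r).map (fun x => (ph C (i, false) x, x, ph C (i, true) x)))

lemma m1 (i : Bool) : Measurable (fun x => (x, ph C (i, true) x, ph C (i, false) x)) :=
  measurable_id.prodMk ((ph_meas C _).prodMk (ph_meas C _))

lemma m2 (i : Bool) : Measurable (fun x => (ph C (i, true) x, ph C (i, false) x, x)) :=
  (ph_meas C _).prodMk ((ph_meas C _).prodMk measurable_id)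

lemma m3 (i : Bool) : Measurable (fun x => (ph C (i, false) x, x, ph C (i, true) x)) :=
  (ph_meas C _).prodMk (measurable_id.prodMk (ph_meas C _))

lemma PP_lint {f : E × E × E → ℝ≥0∞} (hf : Measurable f) :
    ∫⁻ q, f q ∂(PP C) = 2⁻¹ * ∑ i : Bool,
      (∫⁻ x, f (x, ph C (i, true) x, ph C (i, false) x) ∂(al r) +
        ∫⁻ x, f (ph C (i, true) x, ph C (i, false) x, x) ∂(al r) +
        ∫⁻ x, f (ph C (i, false) x, x, ph C (i, true) x) ∂(al r)) := by
  unfold PP
  rw [lintegral_smul_measure, smul_eq_mul, lintegral_finsetSum_measure]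
  congr 1
  refine Finset.sum_congr rfl fun i _ => ?_
  rw [lintegral_add_measure, lintegral_add_measure, lintegral_map hf (m1 C i),
    lintegral_map hf (m2 C i), lintegral_map hf (m3 C i)]

lemma sum_bool4 (g : Bool × Bool → ℝ≥0∞) :
    ∑ k, g k = ∑ i : Bool, (g (i, true) + g (i, false)) := by
  rw [Fintype.sum_prod_type]
  refine Finset.sum_congr rfl fun i _ => ?_
  rw [Fintype.sum_bool]

lemma half_two (a : ℝ≥0∞) (g : Bool → ℝ≥0∞) :
    2⁻¹ * ∑ i : Bool, (a + g i) = a + 2⁻¹ * ∑ i : Bool, g i := by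
  rw [Finset.sum_add_distrib, Finset.sum_const, Finset.card_univ, Fintype.card_bool,
    nsmul_eq_mul, mul_add, ← mul_assoc]
  push_cast
  rw [ENNReal.inv_mul_cancel (by norm_num) (by norm_num), one_mul]

lemma lint3 {ν : Measure E} {f1 f2 f3 g1 g2 g3 : E → ℝ≥0∞} (hf1 : Measurable f1)
    (hf2 : Measurable f2) (hg1 : Measurable g1) (hg2 : Measurable g2)
    (h : ∀ x, f1 x + f2 x + f3 x = g1 x + (g2 x + g3 x)) :
    ∫⁻ x, f1 x ∂ν + ∫⁻ x, f2 x ∂ν + ∫⁻ x, f3 x ∂ν =
      ∫⁻ x, g1 x ∂ν + (∫⁻ x, g2 x ∂ν + ∫⁻ x, g3 x ∂ν) := by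
  have hf12 : Measurable (fun x => f1 x + f2 x) := hf1.add hf2
  rw [← lintegral_add_left hf1, ← lintegral_add_left hf12, ← lintegral_add_left hg2,
    ← lintegral_add_left hg1]
  exact lintegral_congr h

lemma PP_marg (j : E × E × E → E) (hj : Measurable j)
    (h : ∀ i : Bool, ∀ x : E, ∀ f : E → ℝ≥0∞,
      f (j (x, ph C (i, true) x, ph C (i, false) x)) +
        f (j (ph C (i, true) x, ph C (i, false) x, x)) +
        f (j (ph C (i, false) x, x, ph C (i, true) x)) =
      f x + (f (ph C (i, true) x) + f (ph C (i, false) x))) :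
    (PP C).map j = mu C := by
  ext X hX
  have hf : Measurable (X.indicator (fun _ => (1 : ℝ≥0∞))) := measurable_const.indicator hX
  rw [← lintegral_indicator_one hX, ← lintegral_indicator_one hX]
  show ∫⁻ a, X.indicator (fun _ => (1 : ℝ≥0∞)) a ∂((PP C).map j) =
    ∫⁻ a, X.indicator (fun _ => (1 : ℝ≥0∞)) a ∂(mu C)
  rw [lintegral_map hf hj,
    PP_lint C (f := fun q => X.indicator (fun _ => (1 : ℝ≥0∞)) (j q)) (hf.comp hj),
    mu_lint C hf, sum_bool4, ← half_two]
  congr 1
  refine Finset.sum_congr rfl fun i _ => ?_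
  exact lint3 (hf.comp (hj.comp (m1 C i))) (hf.comp (hj.comp (m2 C i))) hf
    (hf.comp (ph_meas C _)) (fun x => h i x _)

lemma cE_meas : Measurable (fun q : E × E × E => cE q.1 q.2.1 q.2.2) := by
  unfold cE
  fun_prop

end Vale.Agent.P121
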