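import Mathlib
import Vale.Agent.P121.Meas

namespace Vale.Agent.P121

open scoped RealInnerProductSpace Topology ENNReal
open Filter MeasureTheory

variable {r : ℝ} (C : ∀ i : Bool, Cls (vv i) r) (hr : r ≤ 1 / 1000) (h0 : 0 < r)

lemma cE_rot (x y z : E) : cE y z x = cE x y z := by
  unfold cE
  rw [norm_sub_rev y x, norm_sub_rev z x]
  ring

lemma PP_fst : (PP C).map (fun q => q.1) = mu C :=
  PP_marg C _ measurable_fst (fun i x f => by ring)

lemma PP_snd : (PP C).map (fun q => q.2.1) = mu C :=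
  PP_marg C _ (measurable_fst.comp measurable_snd) (fun i x f => by ring)

lemma PP_thd : (PP C).map (fun q => q.2.2) = mu C :=
  PP_marg C _ (measurable_snd.comp measurable_snd) (fun i x f => by ring)

include hr in
lemma PP_cost : ∫⁻ q, (cE q.1 q.2.1 q.2.2 + 10) ∂(PP C) = 3 * ∫⁻ x, UE C x ∂(mu C) := by
  have hm : Measurable (fun q : E × E × E => cE q.1 q.2.1 q.2.2 + 10) := cE_meas.add_const 10
  rw [PP_lint C hm, mu_lint C (UE_meas C), sum_bool4, ← half_two]
  simp only
  have key : ∀ i : Bool, ∫⁻ x, (cE x (ph C (i, true) x) (ph C (i, false) x) + 10) ∂(al r) =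
      ∫⁻ x, UE C x ∂(al r) + (∫⁻ x, UE C (ph C (i, true) x) ∂(al r) +
        ∫⁻ x, UE C (ph C (i, false) x) ∂(al r)) := by
    intro i
    have hu1 : Measurable (fun x => UE C (ph C (i, true) x)) := (UE_meas C).comp (ph_meas C _)
    rw [← lintegral_add_left hu1, ← lintegral_add_left (UE_meas C)]
    refine lintegral_congr_ae ?_
    filter_upwards [al_ae (r := r)] with x hx
    rw [← contact C hr i hx, add_assoc]
  have e : ∀ i : Bool,
      (∫⁻ x, (cE x (ph C (i, true) x) (ph C (i, false) x) + 10) ∂(al r) +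
        ∫⁻ x, (cE (ph C (i, true) x) (ph C (i, false) x) x + 10) ∂(al r) +
        ∫⁻ x, (cE (ph C (i, false) x) x (ph C (i, true) x) + 10) ∂(al r)) =
      3 * (∫⁻ x, UE C x ∂(al r) + (∫⁻ x, UE C (ph C (i, true) x) ∂(al r) +
        ∫⁻ x, UE C (ph C (i, false) x) ∂(al r))) := by
    intro i
    have e1 : ∀ x, cE (ph C (i, true) x) (ph C (i, false) x) x =
        cE x (ph C (i, true) x) (ph C (i, false) x) := fun x => cE_rot _ _ _
    have e2 : ∀ x, cE (ph C (i, false) x) x (ph C (i, true) x) =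
        cE x (ph C (i, true) x) (ph C (i, false) x) := fun x => by
      rw [cE_rot (ph C (i, true) x) (ph C (i, false) x) x, cE_rot]
    simp only [e1, e2, key i]
    ring
  rw [Finset.sum_congr rfl fun i _ => e i, ← Finset.mul_sum]
  ring

include hr in
lemma V_fin (h0 : 0 < r) : ∫⁻ x, UE C x ∂(mu C) ≠ ⊤ := by
  have h1 : ∫⁻ x, UE C x ∂(mu C) ≤ ∫⁻ _, ENNReal.ofReal (21 / 2) ∂(mu C) := by
    refine lintegral_mono_ae ?_
    filter_upwards [mu_ae C] with x hx
    exact ENNReal.ofReal_le_ofReal (Ur_bd C hr (mem_KK C hx)).2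
  rw [lintegral_const, mu_univ C h0, mul_one] at h1
  exact ne_top_of_le_ne_top ENNReal.ofReal_ne_top h1

lemma al_le : al r ≤ mu C := Measure.le_add_right le_rfl

include hr h0 in
/-- A map pushing the measure forward cannot agree with an outer map on a nonnull set. -/
lemma D_null {T2 : E → E} (hT2 : Measurable T2) (hpush : (mu C).map T2 = mu C)
    (k : Bool × Bool) : al r (BA r ∩ {x | T2 x = ph C k x}) = 0 := by
  set D := BA r ∩ {x | T2 x = ph C k x} with hD
  have hDm : MeasurableSet D := BA_meas.inter (measurableSet_eq_fun hT2 (ph_meas C k))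
  have hDA : D ⊆ BA r := Set.inter_subset_left
  set B := ph C k '' D with hB
  have hBm : MeasurableSet B := img_meas C k hDm hDA
  have h1 : mu C B ≤ 2⁻¹ * al r D := by
    rw [mu_apply C hBm]
    have a1 : al r B = 0 := by
      apply al_null
      have : B ∩ BA r = ∅ := by
        ext x
        simp only [Set.mem_inter_iff, Set.mem_empty_iff_false, iff_false]
        rintro ⟨⟨y, hy, rfl⟩, h2⟩
        exact out_not C hr k (mem_BA.1 (hDA hy)) (mem_BA.1 h2)
      rw [this]; simp
    rw [a1, zero_add]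
    refine mul_le_mul_right ?_ _
    rw [Finset.sum_eq_single k]
    · rw [al_apply, al_apply]
      refine mul_le_mul_right (measure_mono ?_) _
      rintro x ⟨⟨y, hy, hyx⟩, hx2⟩
      have := ph_inj C k (hDA hy) hx2 hyx
      rw [← this]
      exact ⟨hy, hDA hy⟩
    · intro k' _ hk'
      apply al_null
      have : ph C k' ⁻¹' B ∩ BA r = ∅ := by
        ext x
        simp only [Set.mem_inter_iff, Set.mem_empty_iff_false, iff_false]
        rintro ⟨⟨y, hy, hyx⟩, h2⟩
        exact out_disj C hr hk' (mem_BA.1 h2) (mem_BA.1 (hDA hy)) hyx.symm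
      rw [this]; simp
    · intro h
      exact absurd (Finset.mem_univ _) h
  have h2 : al r D ≤ mu C B := by
    calc al r D ≤ mu C D := al_le C D
      _ ≤ mu C (T2 ⁻¹' B) := by
          refine measure_mono ?_
          intro x hx
          have : T2 x = ph C k x := hx.2
          show T2 x ∈ B
          rw [this]
          exact ⟨x, hx, rfl⟩
      _ = (mu C).map T2 B := (Measure.map_apply hT2 hBm).symm
      _ = mu C B := by rw [hpush]
  have h3 : al r D ≠ ⊤ := by
    have : al r D ≤ al r Set.univ := measure_mono (Set.subset_univ _)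
    rw [al_univ h0] at this
    exact ne_top_of_le_ne_top (by norm_num) this
  by_contra hne
  have h4 := ENNReal.half_lt_self hne h3
  have h5 : al r D ≤ al r D / 2 := by
    rw [div_eq_mul_inv, mul_comm]
    exact h2.trans h1
  exact absurd h5 (not_le.2 h4)

theorem final : ∃ μ : Measure E, IsProbabilityMeasure μ ∧ μ ≪ volume ∧
    ∃ π : Measure (E × E × E), π.map (fun q => q.1) = μ ∧ π.map (fun q => q.2.1) = μ ∧
      π.map (fun q => q.2.2) = μ ∧ ∫⁻ q, cE q.1 q.2.1 q.2.2 ∂π < ⊤ ∧
      ∀ T2 T3 : E → E, Measurable T2 → Measurable T3 → μ.map T2 = μ → μ.map T3 = μ →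
        ¬ (∫⁻ x, cE x (T2 x) (T3 x) ∂μ ≤ ∫⁻ q, cE q.1 q.2.1 q.2.2 ∂π) := by
  obtain ⟨r1, hr1, H1⟩ := exists_cls (vv_norm true)
  obtain ⟨r2, hr2, H2⟩ := exists_cls (vv_norm false)
  set r : ℝ := min (min r1 r2) (1 / 1000) with hrdef
  have h0 : 0 < r := by
    rw [hrdef]
    refine lt_min (lt_min hr1 hr2) (by norm_num)
  have hr : r ≤ 1 / 1000 := min_le_right _ _
  have hC : ∀ i : Bool, Nonempty (Cls (vv i) r) := by
    intro i
    cases i
    · exact H2 r ((min_le_left _ _).trans (min_le_right _ _))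
    · exact H1 r ((min_le_left _ _).trans (min_le_left _ _))
  let C : ∀ i : Bool, Cls (vv i) r := fun i => (hC i).some
  have hprob : IsProbabilityMeasure (mu C) := ⟨mu_univ C h0⟩
  have hPuniv : PP C Set.univ = 1 := by
    have h1 : (PP C).map (fun q => q.1) Set.univ = mu C Set.univ := by rw [PP_fst C]
    rw [Measure.map_apply measurable_fst MeasurableSet.univ, Set.preimage_univ,
      mu_univ C h0] at h1
    exact h1
  have hPcost : ∫⁻ q, cE q.1 q.2.1 q.2.2 ∂(PP C) + 10 = 3 * ∫⁻ x, UE C x ∂(mu C) := by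
    rw [← PP_cost C hr, lintegral_add_right _ measurable_const, lintegral_const, hPuniv, mul_one]
  have hVfin := V_fin C hr h0
  have h3V : 3 * ∫⁻ x, UE C x ∂(mu C) ≠ ⊤ := ENNReal.mul_ne_top (by norm_num) hVfin
  refine ⟨mu C, hprob, mu_ac C, PP C, PP_fst C, PP_snd C, PP_thd C, ?_, ?_⟩
  · rw [lt_top_iff_ne_top]
    intro h
    rw [h, top_add] at hPcost
    exact h3V hPcost.symm
  · intro T2 T3 hT2 hT3 hp2 hp3 hle
    set f : E → ℝ≥0∞ := fun x => UE C x + UE C (T2 x) + UE C (T3 x) with hf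
    set g : E → ℝ≥0∞ := fun x => cE x (T2 x) (T3 x) + 10 with hg
    have hU := UE_meas C
    have hU2 : Measurable (fun x => UE C (T2 x)) := hU.comp hT2
    have hU3 : Measurable (fun x => UE C (T3 x)) := hU.comp hT3
    have hgm : Measurable g :=
      (cE_meas.comp (measurable_id.prodMk (hT2.prodMk hT3))).add_const 10
    have hfint : ∫⁻ x, f x ∂(mu C) = 3 * ∫⁻ x, UE C x ∂(mu C) := by
      have hU12 : Measurable (fun x => UE C x + UE C (T2 x)) := hU.add hU2
      have i2 : ∫⁻ x, UE C (T2 x) ∂(mu C) = ∫⁻ x, UE C x ∂(mu C) := by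
        rw [← lintegral_map hU hT2, hp2]
      have i3 : ∫⁻ x, UE C (T3 x) ∂(mu C) = ∫⁻ x, UE C x ∂(mu C) := by
        rw [← lintegral_map hU hT3, hp3]
      rw [hf, lintegral_add_left hU12, lintegral_add_left hU, i2, i3]
      ring
    have hgint : ∫⁻ x, g x ∂(mu C) ≤ ∫⁻ x, f x ∂(mu C) := by
      rw [hfint, ← hPcost, hg, lintegral_add_right _ measurable_const, lintegral_const,
        mu_univ C h0, mul_one]
      exact add_le_add hle le_rfl
    have hK := mu_ae C
    have hK2 : ∀ᵐ x ∂(mu C), T2 x ∈ KK C := by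
      apply ae_of_ae_map hT2.aemeasurable
      rw [hp2]; exact hK
    have hK3 : ∀ᵐ x ∂(mu C), T3 x ∈ KK C := by
      apply ae_of_ae_map hT3.aemeasurable
      rw [hp3]; exact hK
    have hfg : f ≤ᵐ[mu C] g := by
      filter_upwards [hK, hK2, hK3] with x h1 h2 h3
      exact ennreal_le C hr (mem_KK C h1) (mem_KK C h2) (mem_KK C h3)
    have heq := ae_eq_of_ae_le_of_lintegral_le hfg (by rw [hfint]; exact h3V)
      hgm.aemeasurable hgint
    have hfin : ∀ᵐ x ∂(mu C), ‖x‖ < r → ∃ k, T2 x = ph C k x := by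
      filter_upwards [heq, hK2, hK3] with x h1 h2 h3 hx
      exact ennreal_eq C hr hx (mem_KK C h2) (mem_KK C h3) h1
    have hfin2 : ∀ᵐ x ∂(al r), ∃ k, T2 x = ph C k x := by
      have h1 : ∀ᵐ x ∂(al r), ‖x‖ < r → ∃ k, T2 x = ph C k x :=
        ae_mono (al_le C) hfin
      filter_upwards [h1, al_ae (r := r)] with x h2 h3
      exact h2 h3
    have hcover : al r Set.univ ≤ ∑ k, al r (BA r ∩ {x | T2 x = ph C k x}) := by
      have h1 : al r Set.univ ≤ al r (⋃ k, BA r ∩ {x | T2 x = ph C k x}) := by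
        refine measure_mono_ae ?_
        filter_upwards [hfin2, al_ae (r := r)] with x h2 h3 _
        obtain ⟨k, hk⟩ := h2
        exact Set.mem_iUnion.2 ⟨k, mem_BA.2 h3, hk⟩
      exact h1.trans (measure_iUnion_fintype_le _ _)
    rw [Finset.sum_eq_zero (fun k _ => D_null C hr h0 hT2 hp2 k), al_univ h0] at hcover
    simp at hcover

end Vale.Agent.P121
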